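import Crest.Agent.R292.Sig

/-!
# Row 292: `fun_prop` support for `Primrec`
-/

set_option autoImplicit false

namespace Crest.Agent.R292

attribute [fun_prop] Primrec

variable {α β γ : Type} [Primcodable α] [Primcodable β] [Primcodable γ]

@[fun_prop] theorem pr_id : Primrec fun a : α => a := Primrec.id
@[fun_prop] theorem pr_const (b : β) : Primrec fun _ : α => b := Primrec.const b
@[fun_prop] theorem pr_comp {f : β → γ} {g : α → β} (hf : Primrec f) (hg : Primrec g) :
    Primrec fun a => f (g a) := hf.comp hg
@[fun_prop] theorem pr_fst {f : α → β × γ} (hf : Primrec f) : Primrec fun a => (f a).1 :=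
  Primrec.fst.comp hf
@[fun_prop] theorem pr_snd {f : α → β × γ} (hf : Primrec f) : Primrec fun a => (f a).2 :=
  Primrec.snd.comp hf
@[fun_prop] theorem pr_pair {f : α → β} {g : α → γ} (hf : Primrec f) (hg : Primrec g) :
    Primrec fun a => (f a, g a) := hf.pair hg
@[fun_prop] theorem pr_add {f g : α → ℕ} (hf : Primrec f) (hg : Primrec g) :
    Primrec fun a => f a + g a := Primrec.nat_add.comp hf hg
@[fun_prop] theorem pr_sub {f g : α → ℕ} (hf : Primrec f) (hg : Primrec g) :
    Primrec fun a => f a - g a := Primrec.nat_sub.comp hf hg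
@[fun_prop] theorem pr_mul {f g : α → ℕ} (hf : Primrec f) (hg : Primrec g) :
    Primrec fun a => f a * g a := Primrec.nat_mul.comp hf hg
@[fun_prop] theorem pr_div {f g : α → ℕ} (hf : Primrec f) (hg : Primrec g) :
    Primrec fun a => f a / g a := Primrec.nat_div.comp hf hg
@[fun_prop] theorem pr_mod {f g : α → ℕ} (hf : Primrec f) (hg : Primrec g) :
    Primrec fun a => f a % g a := Primrec.nat_mod.comp hf hg
@[fun_prop] theorem pr_unpair {f : α → ℕ} (hf : Primrec f) : Primrec fun a => (f a).unpair :=
  Primrec.unpair.comp hf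
@[fun_prop] theorem pr_natPair {f g : α → ℕ} (hf : Primrec f) (hg : Primrec g) :
    Primrec fun a => Nat.pair (f a) (g a) := Primrec₂.natPair.comp hf hg
@[fun_prop] theorem pr_not {f : α → Bool} (hf : Primrec f) : Primrec fun a => !(f a) :=
  Primrec.not.comp hf
@[fun_prop] theorem pr_length {f : α → List β} (hf : Primrec f) : Primrec fun a => (f a).length :=
  Primrec.list_length.comp hf
@[fun_prop] theorem pr_getD {f : α → List β} {g : α → ℕ} (d : β) (hf : Primrec f)
    (hg : Primrec g) : Primrec fun a => (f a).getD (g a) d := (Primrec.list_getD d).comp hf hg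
@[fun_prop] theorem pr_take {f : α → List β} {g : α → ℕ} (hf : Primrec f) (hg : Primrec g) :
    Primrec fun a => (f a).take (g a) := Primrec.list_take.comp hg hf
@[fun_prop] theorem pr_count {f : α → List Bool} (b : Bool) (hf : Primrec f) :
    Primrec fun a => (f a).count b := by
  have h : Primrec fun l : List Bool => l.count b := by
    have := Primrec.list_length.comp
      (Primrec.listFilter (p := fun x : Bool => x = b) (Primrec.eq.comp Primrec.id (Primrec.const b)))
    refine this.of_eq fun l => ?_
    rw [List.count_eq_length_filter]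
    congr 2
  exact h.comp hf

theorem pp_eq {f g : α → β} (hf : Primrec f) (hg : Primrec g) : PrimrecPred fun a => f a = g a :=
  Primrec.eq.comp hf hg
theorem pp_lt {f g : α → ℕ} (hf : Primrec f) (hg : Primrec g) : PrimrecPred fun a => f a < g a :=
  Primrec.nat_lt.comp hf hg
theorem pp_le {f g : α → ℕ} (hf : Primrec f) (hg : Primrec g) : PrimrecPred fun a => f a ≤ g a :=
  Primrec.nat_le.comp hf hg

variable {Y : Orc}

theorem Sig.eq {f g : α → β} (hf : Primrec f) (hg : Primrec g) : Sig Y fun a => f a = g a :=
  Sig.of_primrecPred (pp_eq hf hg)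
theorem Sig.lt {f g : α → ℕ} (hf : Primrec f) (hg : Primrec g) : Sig Y fun a => f a < g a :=
  Sig.of_primrecPred (pp_lt hf hg)
theorem Sig.le {f g : α → ℕ} (hf : Primrec f) (hg : Primrec g) : Sig Y fun a => f a ≤ g a :=
  Sig.of_primrecPred (pp_le hf hg)

/-- `Sig.exists` in curried form. -/
theorem Sig.ex {P : α → β → Prop} (h : Sig Y fun x : α × β => P x.1 x.2) :
    Sig Y fun a => ∃ b, P a b := h.exists

/-- `Sig.ball` in curried form. -/
theorem Sig.all {P : α → ℕ → Prop} {g : α → ℕ} (hg : Primrec g)
    (h : Sig Y fun x : α × ℕ => P x.1 x.2) : Sig Y fun a => ∀ i < g a, P a i := h.ball hg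

example : Primrec fun x : (List Bool × Bool) × ℕ => (x.1.1.take x.2, !(x.1.1.getD (x.2 % 3 + 1) true)) := by
  fun_prop

end Crest.Agent.R292
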