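import Crest.Agent.R292.Red
import Crest.Agent.R292.Pr

/-!
# Row 292: iterating Turing functionals uniformly   (task R292-AlgA)

Plan: let `S Z x ↔ ∃ M, R x (pre Z M)` with `R` monotone (`USig.mono_wit`).  Put
`Der ((a, j), n, b) := ∃ T : List (List Bool), (∀ m < |T₀|, X₀ m = T₀.getD m false) ∧
  (∀ i < j, ∀ m < |T_{i+1}|, ∃ σ, R ((a, i), m, T_{i+1}.getD m false) σ ∧
     ∀ l < σ.length, (l % 2 = 0 ∧ l / 2 < |T_i| ∧ σ.getD l false = T_i.getD (l/2) false) ∨
                     (l % 2 = 1 ∧ Y (l / 2) = σ.getD l false)) ∧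
  n < |T_j| ∧ T_j.getD n false = b`,  where `T_i = T.getD i []`.
It is `Sig Y` by the closure lemmas (`Red.query` for `X₀`).  Soundness: by induction on `i ≤ j`,
`T_i` is a prefix of `W i` (then `σ = pre (join (W i) Y) |σ|` by `eq_pre_iff`).  Completeness: choose
lengths backwards, `len j = n + 1`, `len i ≥` all uses for the bits `m < len (i+1)`; e.g. prove by
induction on `j`: for every `M` there is `len : ℕ → ℕ` with `M ≤ len j` and the step condition for
all `i < j`; then `T = (List.range (j+1)).map fun i => pre (W i) (len i)`.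
-/

set_option autoImplicit false

namespace Crest.Agent.R292

theorem exists_bound {P : ℕ → ℕ → Prop} (hm : ∀ m M M', M ≤ M' → P m M → P m M') (n : ℕ)
    (h : ∀ m < n, ∃ M, P m M) : ∃ M, ∀ m < n, P m M := by
  induction n with
  | zero => exact ⟨0, fun m hm => absurd hm (by simp)⟩
  | succ n ih =>
    obtain ⟨M, hM⟩ := ih fun m hm => h m (by omega)
    obtain ⟨M', hM'⟩ := h n (by omega)
    refine ⟨max M M', fun m hmn => ?_⟩
    rcases Nat.lt_succ_iff_lt_or_eq.1 hmn with h1 | rfl
    · exact hm _ _ _ (le_max_left _ _) (hM m h1)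
    · exact hm _ _ _ (le_max_right _ _) hM'

theorem exists_chain {α : Type} [Primcodable α] {Y X₀ : Orc} (h₀ : Red X₀ Y)
    {S : Orc → (α × ℕ) × ℕ × Bool → Prop} (hS : USig S) :
    ∃ Der : (α × ℕ) × ℕ × Bool → Prop, Sig Y Der ∧
      ∀ (a : α) (j : ℕ) (W : ℕ → Orc), W 0 = X₀ →
        (∀ i < j, ∀ n b, W (i + 1) n = b ↔ S (join (W i) Y) ((a, i), n, b)) →
        ∀ n b, Der ((a, j), n, b) ↔ W j n = b := by
  obtain ⟨R, hR, hS'⟩ := hS
  refine ⟨fun x => ∃ T : List (List Bool),
    (∀ m < (T.getD 0 []).length, X₀ m = (T.getD 0 []).getD m false) ∧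
    (∀ i < x.1.2, ∀ m < (T.getD (i + 1) []).length, ∃ σ : List Bool,
      R ((x.1.1, i), m, (T.getD (i + 1) []).getD m false) σ ∧
      ∀ l < σ.length, (l % 2 = 0 ∧ l / 2 < (T.getD i []).length ∧
        σ.getD l false = (T.getD i []).getD (l / 2) false) ∨
        (l % 2 = 1 ∧ Y (l / 2) = σ.getD l false)) ∧
    x.2.1 < (T.getD x.1.2 []).length ∧ (T.getD x.1.2 []).getD x.2.1 false = x.2.2, ?_, ?_⟩
  · refine Sig.ex (Sig.and (Sig.all (by fun_prop) (h₀.query (by fun_prop) (by fun_prop)))
      (Sig.and (Sig.all (by fun_prop) (Sig.all (by fun_prop) (Sig.ex (Sig.and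
        (Sig.of_primrecPred (hR.comp (by fun_prop) (by fun_prop)))
        (Sig.all (by fun_prop) (Sig.or (Sig.and (Sig.eq (by fun_prop) (by fun_prop))
          (Sig.and (Sig.lt (by fun_prop) (by fun_prop)) (Sig.eq (by fun_prop) (by fun_prop))))
          (Sig.and (Sig.eq (by fun_prop) (by fun_prop))
            (Sig.query (by fun_prop) (by fun_prop)))))))))
        (Sig.and (Sig.lt (by fun_prop) (by fun_prop)) (Sig.eq (by fun_prop) (by fun_prop)))))
  · intro a j W hW0 hW n b
    constructor
    · rintro ⟨T, h0, hstep, hn, hb⟩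
      have key : ∀ i ≤ j, ∀ m < (T.getD i []).length, W i m = (T.getD i []).getD m false := by
        intro i
        induction i with
        | zero => intro _; rw [hW0]; exact h0
        | succ i ih =>
          intro hi m hm
          obtain ⟨σ, hσ, hσ'⟩ := hstep i (by simp only; omega) m hm
          rw [hW i (by omega), hS']
          refine ⟨σ.length, ?_⟩
          rw [← (eq_pre_iff (join (W i) Y) σ).2 ?_]
          · exact hσ
          · intro l hl
            rcases hσ' l hl with ⟨h1, h2, h3⟩ | ⟨h1, h2⟩
            · simp only [join, h1, if_true]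
              rw [h3]
              exact ih (by omega) _ h2
            · simp only [join, h1, one_ne_zero, if_false]
              exact h2
      rw [key j le_rfl n hn]
      exact hb
    · intro hb
      have key : ∀ j' ≤ j, ∀ M, ∃ len : ℕ → ℕ, M ≤ len j' ∧ ∀ i < j', ∀ m < len (i + 1),
          ∃ K ≤ len i, R ((a, i), m, W (i + 1) m) (pre (join (W i) Y) K) := by
        intro j'
        induction j' with
        | zero => intro _ M; exact ⟨fun _ => M, le_rfl, fun i hi => absurd hi (by simp)⟩
        | succ j' ih =>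
          intro hj M
          obtain ⟨K, hK⟩ := exists_bound
            (P := fun m M' => ∃ K ≤ M', R ((a, j'), m, W (j' + 1) m) (pre (join (W j') Y) K))
            (fun m M₁ M₂ h ⟨K, hK, hr⟩ => ⟨K, hK.trans h, hr⟩) M (fun m _ => by
              obtain ⟨K, hK⟩ := (hS' _ _).1 ((hW j' (by omega) m _).1 rfl)
              exact ⟨K, K, le_rfl, hK⟩)
          obtain ⟨len, h1, h2⟩ := ih (by omega) K
          refine ⟨fun i => if i = j' + 1 then M else len i, by simp, fun i hi m hm => ?_⟩
          have e : (if i = j' + 1 then M else len i) = len i := if_neg (by omega)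
          simp only [e]
          rcases Nat.lt_succ_iff_lt_or_eq.1 hi with h3 | rfl
          · simp only [if_neg (show i + 1 ≠ j' + 1 by omega)] at hm
            exact h2 i h3 m hm
          · simp only [if_true] at hm
            obtain ⟨K', hK', hr⟩ := hK m hm
            exact ⟨K', hK'.trans h1, hr⟩
      obtain ⟨len, h1, h2⟩ := key j le_rfl (n + 1)
      have hT : ∀ i ≤ j, ((List.range (j + 1)).map fun i => pre (W i) (len i)).getD i [] =
          pre (W i) (len i) := fun i hi => by
        simp [List.getD_eq_getElem?_getD, Nat.lt_succ_of_le hi]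
      refine ⟨(List.range (j + 1)).map fun i => pre (W i) (len i), ?_, ?_, ?_, ?_⟩
      · rw [hT 0 (by omega), pre_length]
        intro m hm
        rw [pre_getD _ hm, hW0]
      · intro i hi m hm
        simp only at hi
        rw [hT (i + 1) (by omega), pre_length] at hm
        rw [hT (i + 1) (by omega), hT i (by omega), pre_getD _ hm, pre_length]
        obtain ⟨K, hK, hr⟩ := h2 i hi m hm
        refine ⟨_, hr, fun l hl => ?_⟩
        rw [pre_length] at hl
        rw [pre_getD _ hl]
        rcases Nat.mod_two_eq_zero_or_one l with h3 | h3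
        · left
          refine ⟨h3, by omega, ?_⟩
          rw [pre_getD _ (by omega)]
          simp only [join, h3, if_true]
        · right
          refine ⟨h3, ?_⟩
          simp only [join, h3, one_ne_zero, if_false]
      · simp only
        rw [hT j le_rfl, pre_length]
        omega
      · simp only
        rw [hT j le_rfl, pre_getD _ (by omega)]
        exact hb

end Crest.Agent.R292
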