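import Crest.Agent.R292.Red
import Crest.Agent.R292.Pr

/-!
# Row 292: a sign test computes `r`   (task R292-AlgC)

Call `w` *greedy* if `∀ i < |w|, (i = 0 ∧ w.getD 0 true = true) ∨
(0 < i ∧ T (w.take i, !(w.getD i true)))` (first letter `+1`; afterwards `-r` if the current sum is
positive and `+1` if it is negative).  This is `Sig Y`.  By induction on `i`, every prefix of a greedy
word has `sumw ∈ (-r, 1]`, (a non-empty prefix contains a `true`, so its sum is `≠ 0` by
irrationality, and the test is correct for it).  Greedy words of every length exist (extend by the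
true sign).  With `A = w.count true`, `B = w.count false` (primitive recursive in `w`),
`-r < A - B r ≤ 1`, `|w| = A + B ≤ B (r + 1) + 1`, so `B` is unbounded.  For `n = ⟨a, c⟩`:
`a < r (c+1) ↔ ∃ w greedy, a * B + (c + 1) < A * (c + 1)`, and
`¬ a < r (c+1) ↔ ∃ w greedy, 2 ≤ B ∧ A * (c + 1) + a ≤ a * B` (use `a ≠ r (c+1)`).  `red_of_two`.
-/

set_option autoImplicit false

namespace Crest.Agent.R292

theorem sumw_nil (r : ℝ) : sumw r [] = 0 := by simp [sumw]

theorem sumw_concat (r : ℝ) (w : List Bool) (b : Bool) :
    sumw r (w ++ [b]) = sumw r w + if b then 1 else -r := by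
  cases b <;> simp [sumw, List.count_append] <;> ring

theorem take_succ_getD (w : List Bool) {i : ℕ} (hi : i < w.length) :
    w.take (i + 1) = w.take i ++ [w.getD i true] := by
  rw [List.take_add_one]
  simp [List.getD_eq_getElem?_getD, hi]

theorem count_add_count (w : List Bool) : w.count true + w.count false = w.length := by
  induction w with
  | nil => simp
  | cons b w ih => cases b <;> simp <;> omega

theorem sumw_ne_zero {r : ℝ} (hirr : Irrational r) {w : List Bool} (hw : 1 ≤ w.count true) :
    sumw r w ≠ 0 := by
  intro h0
  unfold sumw at h0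
  have hA : (1 : ℝ) ≤ w.count true := by exact_mod_cast hw
  have hB : (w.count false : ℝ) ≠ 0 := by
    intro hB
    rw [hB] at h0
    linarith
  apply hirr
  refine ⟨(w.count true : ℚ) / (w.count false : ℚ), ?_⟩
  push_cast
  field_simp
  linarith

/-- Greedy words. -/
def Greedy (T : List Bool × Bool → Prop) (w : List Bool) : Prop :=
  ∀ i < w.length, (i = 0 ∧ w.getD 0 true = true) ∨ (0 < i ∧ T (w.take i, !(w.getD i true)))

theorem greedy_sig {Y : Orc} {T : List Bool × Bool → Prop} (hT : Sig Y T) : Sig Y (Greedy T) := by
  unfold Greedy
  refine Sig.all (by fun_prop) (Sig.or (Sig.and (Sig.eq (by fun_prop) (by fun_prop))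
    (Sig.eq (by fun_prop) (by fun_prop))) (Sig.and (Sig.lt (by fun_prop) (by fun_prop)) ?_))
  exact hT.comp (by fun_prop)

theorem greedy_bound {r : ℝ} (hr : 0 < r) (hirr : Irrational r) {T : List Bool × Bool → Prop}
    (h : ∀ w : List Bool, (∀ i, |sumw r (w.take i)| ≤ 1 + r) → sumw r w ≠ 0 →
        (T (w, true) ↔ 0 < sumw r w) ∧ (T (w, false) ↔ sumw r w < 0))
    {w : List Bool} (hw : Greedy T w) (i : ℕ) :
    (-r < sumw r (w.take i) ∧ sumw r (w.take i) ≤ 1) ∧
      (0 < i → 0 < w.length → 1 ≤ (w.take i).count true) := by
  induction i using Nat.strong_induction_on with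
  | _ i ih =>
    cases i with
    | zero => simp [sumw_nil, hr]
    | succ i =>
      by_cases hi : i < w.length
      · rw [take_succ_getD w hi, sumw_concat]
        rcases hw i hi with ⟨rfl, h0⟩ | ⟨h0, hT⟩
        · rw [h0]
          simp [sumw_nil]
          linarith
        · have hc := (ih i (Nat.lt_succ_self _)).2 h0 (by omega)
          have hb := (ih i (Nat.lt_succ_self _)).1
          have hall : ∀ j, |sumw r ((w.take i).take j)| ≤ 1 + r := by
            intro j
            rw [List.take_take]
            have := (ih (min j i) (by omega)).1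
            rw [abs_le]
            constructor <;> linarith [this.1, this.2]
          have ht := h _ hall (sumw_ne_zero hirr hc)
          refine ⟨?_, fun _ _ => ?_⟩
          · cases hb' : w.getD i true
            · rw [hb'] at hT
              have := ht.1.1 hT
              simp only [Bool.false_eq_true, if_false]
              constructor <;> linarith [hb.1, hb.2]
            · rw [hb'] at hT
              have := ht.2.1 hT
              simp only [if_true]
              constructor <;> linarith [hb.1, hb.2]
          · rw [List.count_append]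
            omega
      · have e : w.take (i + 1) = w.take i := by
          rw [List.take_of_length_le (by omega), List.take_of_length_le (by omega)]
        rw [e]
        refine ⟨(ih i (Nat.lt_succ_self _)).1, fun _ h0 => (ih i (Nat.lt_succ_self _)).2 ?_ h0⟩
        omega

theorem exists_greedy {r : ℝ} (hr : 0 < r) (hirr : Irrational r) {T : List Bool × Bool → Prop}
    (h : ∀ w : List Bool, (∀ i, |sumw r (w.take i)| ≤ 1 + r) → sumw r w ≠ 0 →
        (T (w, true) ↔ 0 < sumw r w) ∧ (T (w, false) ↔ sumw r w < 0)) (n : ℕ) :
    ∃ w : List Bool, w.length = n ∧ Greedy T w := by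
  induction n with
  | zero => exact ⟨[], rfl, fun i hi => absurd hi (by simp)⟩
  | succ n ih =>
    obtain ⟨w, hl, hw⟩ := ih
    have key : ∀ b : Bool, ((n = 0 ∧ b = true) ∨ (0 < n ∧ T (w, !b))) → Greedy T (w ++ [b]) := by
      intro b hb i hi
      simp only [List.length_append, List.length_singleton] at hi
      by_cases hin : i < w.length
      · have e1 : (w ++ [b]).take i = w.take i := List.take_append_of_le_length hin.le
        have e2 : ∀ j < w.length, (w ++ [b]).getD j true = w.getD j true := fun j hj => by
          simp [List.getD_eq_getElem?_getD, List.getElem?_append_left hj]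
        rw [e1, e2 i hin, e2 0 (by omega)]
        exact hw i hin
      · have e : i = w.length := by omega
        subst e
        have e1 : (w ++ [b]).take w.length = w := by simp
        have e2 : (w ++ [b]).getD w.length true = b := by simp [List.getD_eq_getElem?_getD]
        rcases hb with ⟨h0, rfl⟩ | ⟨h0, hT⟩
        · left
          have : w.length = 0 := by omega
          refine ⟨this, ?_⟩
          rw [← this]
          exact e2
        · right
          rw [e1, e2]
          exact ⟨by omega, hT⟩
    rcases Nat.eq_zero_or_pos n with h0 | h0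
    · exact ⟨w ++ [true], by simp [hl], key true (Or.inl ⟨h0, rfl⟩)⟩
    · have hall : ∀ j, |sumw r (w.take j)| ≤ 1 + r := by
        intro j
        have := (greedy_bound hr hirr h hw j).1
        rw [abs_le]
        constructor <;> linarith [this.1, this.2]
      have hc := (greedy_bound hr hirr h hw w.length).2 (by omega) (by omega)
      rw [List.take_length] at hc
      have hne := sumw_ne_zero hirr hc
      have ht := h w hall hne
      rcases lt_or_gt_of_ne hne with hlt | hgt
      · exact ⟨w ++ [true], by simp [hl], key true (Or.inr ⟨h0, ht.2.2 hlt⟩)⟩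
      · exact ⟨w ++ [false], by simp [hl], key false (Or.inr ⟨h0, ht.1.2 hgt⟩)⟩

theorem red_cut_of_sign {Y : Orc} {r : ℝ} (hr : 0 < r) (hirr : Irrational r)
    {T : List Bool × Bool → Prop} (hT : Sig Y T)
    (h : ∀ w : List Bool, (∀ i, |sumw r (w.take i)| ≤ 1 + r) → sumw r w ≠ 0 →
        (T (w, true) ↔ 0 < sumw r w) ∧ (T (w, false) ↔ sumw r w < 0)) :
    Red (cut r) Y := by
  have hG := greedy_sig hT
  have bd : ∀ w, Greedy T w → -r < (w.count true : ℝ) - w.count false * r ∧
      (w.count true : ℝ) - w.count false * r ≤ 1 := fun w hw => by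
    have := (greedy_bound hr hirr h hw w.length).1
    rwa [List.take_length] at this
  have big : ∀ K : ℝ, ∃ w, Greedy T w ∧ K < w.count false := fun K => by
    obtain ⟨n, hn⟩ := exists_nat_gt (K * (r + 1) + 1)
    obtain ⟨w, hl, hw⟩ := exists_greedy hr hirr h n
    refine ⟨w, hw, ?_⟩
    have h1 := (bd w hw).2
    have h2 : (w.count true : ℝ) + w.count false = n := by
      rw [← hl, ← count_add_count w]; push_cast; ring
    by_contra hK
    push Not at hK
    nlinarith
  apply red_of_two
  · refine (Sig.ex (P := fun (n : ℕ) (w : List Bool) => Greedy T w ∧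
      n.unpair.1 * w.count false + (n.unpair.2 + 1) < w.count true * (n.unpair.2 + 1))
      ((hG.comp (by fun_prop)).and (Sig.lt (by fun_prop) (by fun_prop)))).congr fun n => ?_
    simp only [cut, decide_eq_true_eq]
    generalize n.unpair.1 = a
    generalize n.unpair.2 = c
    have hc : (0 : ℝ) < c + 1 := by positivity
    constructor
    · rintro ⟨w, hw, hlt⟩
      have h1 := (bd w hw).2
      have h2 : (a : ℝ) * w.count false + (c + 1) < w.count true * (c + 1) := by exact_mod_cast hlt
      have hB : (0 : ℝ) ≤ w.count false := by positivity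
      by_contra hn
      push Not at hn
      nlinarith [mul_le_mul_of_nonneg_right hn hB, mul_le_mul_of_nonneg_right h1 hc.le]
    · intro hlt
      obtain ⟨w, hw, hK⟩ := big ((r + 1) * (c + 1) / (r * (c + 1) - a))
      refine ⟨w, hw, ?_⟩
      have h1 := (bd w hw).1
      rw [div_lt_iff₀ (by linarith)] at hK
      have : (a : ℝ) * w.count false + (c + 1) < w.count true * (c + 1) := by
        nlinarith [mul_lt_mul_of_pos_right h1 hc]
      exact_mod_cast this
  · refine (Sig.ex (P := fun (n : ℕ) (w : List Bool) => Greedy T w ∧ 2 ≤ w.count false ∧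
      w.count true * (n.unpair.2 + 1) + n.unpair.1 ≤ n.unpair.1 * w.count false)
      ((hG.comp (by fun_prop)).and ((Sig.le (by fun_prop) (by fun_prop)).and
        (Sig.le (by fun_prop) (by fun_prop))))).congr fun n => ?_
    simp only [cut, decide_eq_false_iff_not, not_lt]
    generalize n.unpair.1 = a
    generalize n.unpair.2 = c
    have hc : (0 : ℝ) < c + 1 := by positivity
    constructor
    · rintro ⟨w, hw, hB, hle⟩
      have h1 := (bd w hw).1
      have h2 : (w.count true : ℝ) * (c + 1) + a ≤ a * w.count false := by exact_mod_cast hle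
      have hB' : (2 : ℝ) ≤ w.count false := by exact_mod_cast hB
      by_contra hn
      push Not at hn
      have hB1 : (0 : ℝ) < w.count false - 1 := by linarith
      nlinarith [mul_lt_mul_of_pos_right hn hB1, mul_lt_mul_of_pos_right h1 hc]
    · intro hle
      have hne : r * (c + 1) ≠ a := by
        intro he
        apply hirr
        refine ⟨(a : ℚ) / ((c : ℚ) + 1), ?_⟩
        push_cast
        field_simp
        linarith
      have hlt : r * (c + 1) < a := lt_of_le_of_ne hle hne
      obtain ⟨w, hw, hK⟩ := big (max 2 ((a + (c + 1)) / (a - r * (c + 1))))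
      have hK1 := (le_max_left _ _).trans_lt hK
      have hK2 := (le_max_right _ _).trans_lt hK
      refine ⟨w, hw, by exact_mod_cast hK1.le, ?_⟩
      have h1 := (bd w hw).2
      rw [div_lt_iff₀ (by linarith)] at hK2
      have : (w.count true : ℝ) * (c + 1) + a ≤ a * w.count false := by
        nlinarith [mul_le_mul_of_nonneg_right h1 hc.le]
      exact_mod_cast this

end Crest.Agent.R292
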