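import Crest.Agent.R292.AlgA
import Crest.Agent.R292.AlgC

/-!
# Row 292: the sign test   (task R292-AlgB)

A word `w : List Bool` with a direction `s : Bool` describes a periodic walk on `ℤ × ℤ`: the `i`-th
letter is `l = w.getD (i % w.length) true`; `l = true` moves `a` by `+1` (`s = true`) or `-1`
(`s = false`); `l = false` moves `b` by `-1` (`s = true`) or `+1` (`s = false`).  The value
`a + b * r` after `i = j * |w| + i'` steps is `± (j * sumw r w + sumw r (w.take i'))`.
Apply `exists_chain` with `α = List Bool × Bool`, `X₀ = V 0 0` and `S Z (((w, s), i), x)` the operator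
among `S₁ … S₄` chosen by `(l, s)` (`USig.or/and/of_primrecPred/comp`).  So
`Der (((w, s), j * |w|), k, b) ↔ V (position) k = b` as long as `j * |sumw r w| + (1 + r) < Λ`.
Define `T (w, s) := ∃ n, Der (((w, s), n * |w|), k, !b₀) ∧ ∀ j < n + 1, Der (((w, !s), j * |w|), k, b₀)`.
Let `η = ± sumw r w` (sign `s`), `0 < |η| ≤ 1 + r`, `n₀` least with `α < n₀ * |η|`, so
`n₀ * |η| ≤ α + (1 + r) < β`.  If `η > 0`, `n = n₀` is a witness.  If `η < 0` there is none: for
`n ≥ n₀` the clause `j = n₀` fails (the value there is `!b₀`), for `n < n₀` the first clause fails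
(the value at `n * η ≤ 0` is `b₀`).
-/

set_option autoImplicit false

namespace Crest.Agent.R292

/-- The periodic walk on `ℤ × ℤ` given by a word and a direction. -/
def walk (w : List Bool) (s : Bool) : ℕ → ℤ × ℤ
  | 0 => (0, 0)
  | i + 1 =>
    if w.getD (i % w.length) true then
      (if s then ((walk w s i).1 + 1, (walk w s i).2) else ((walk w s i).1 - 1, (walk w s i).2))
    else
      (if s then ((walk w s i).1, (walk w s i).2 - 1) else ((walk w s i).1, (walk w s i).2 + 1))

theorem walk_val (r : ℝ) (w : List Bool) (s : Bool) (j : ℕ) :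
    ∀ i ≤ w.length, ((walk w s (j * w.length + i)).1 : ℝ) + (walk w s (j * w.length + i)).2 * r =
      (if s then 1 else -1) * (j * sumw r w + sumw r (w.take i)) := by
  have inner : ∀ j : ℕ, ((walk w s (j * w.length)).1 : ℝ) + (walk w s (j * w.length)).2 * r =
      (if s then 1 else -1) * (j * sumw r w) →
      ∀ i ≤ w.length, ((walk w s (j * w.length + i)).1 : ℝ) + (walk w s (j * w.length + i)).2 * r =
      (if s then 1 else -1) * (j * sumw r w + sumw r (w.take i)) := by
    intro j hj i
    induction i with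
    | zero => intro _; simpa [sumw_nil] using hj
    | succ i ih =>
      intro hi
      have ih' := ih (by omega)
      have e : (j * w.length + i) % w.length = i := by
        rw [Nat.mul_add_mod_self_right, Nat.mod_eq_of_lt (by omega)]
      rw [take_succ_getD w (by omega : i < w.length), sumw_concat, ← add_assoc, walk, e]
      cases w.getD i true <;> cases s <;> simp at ih' ⊢ <;> linarith
  apply inner
  induction j with
  | zero => simp [walk]
  | succ j ih =>
    have := inner j ih w.length le_rfl
    rw [List.take_length] at this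
    rw [Nat.succ_mul, this]
    push_cast
    ring

theorem sign_test {Y : Orc} {r : ℝ} (hr : 0 < r) (V : ℤ → ℤ → Orc) (Λ α β : ℝ) (k : ℕ) (b₀ : Bool)
    {S₁ S₂ S₃ S₄ : Op} (h₁ : USig S₁) (h₂ : USig S₂) (h₃ : USig S₃) (h₄ : USig S₄)
    (h₀ : Red (V 0 0) Y)
    (hx : ∀ a b : ℤ, |(a : ℝ) + b * r| < Λ → |(a : ℝ) + 1 + b * r| < Λ →
      Maps S₁ (join (V a b) Y) (V (a + 1) b) ∧ Maps S₂ (join (V (a + 1) b) Y) (V a b))
    (hy : ∀ a b : ℤ, |(a : ℝ) + b * r| < Λ → |(a : ℝ) + (b + 1) * r| < Λ →
      Maps S₃ (join (V a b) Y) (V a (b + 1)) ∧ Maps S₄ (join (V a (b + 1)) Y) (V a b))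
    (hneg : ∀ a b : ℤ, -Λ < (a : ℝ) + b * r → (a : ℝ) + b * r ≤ 0 → V a b k = b₀)
    (hpos : ∀ a b : ℤ, α < (a : ℝ) + b * r → (a : ℝ) + b * r < β → V a b k = !b₀)
    (hα : 0 < α) (hβ : α + (1 + r) < β) (hΛ : β + 2 * (1 + r) < Λ) :
    ∃ T : List Bool × Bool → Prop, Sig Y T ∧
      ∀ w : List Bool, (∀ i, |sumw r (w.take i)| ≤ 1 + r) → sumw r w ≠ 0 →
        (T (w, true) ↔ 0 < sumw r w) ∧ (T (w, false) ↔ sumw r w < 0) := by
  have e : ∀ {f g : ((List Bool × Bool) × ℕ) × ℕ × Bool → Bool}, Primrec f → Primrec g →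
      USig fun (_ : Orc) x => f x = g x := fun hf hg => USig.of_primrecPred (pp_eq hf hg)
  have hS : USig fun (Z : Orc) (x : ((List Bool × Bool) × ℕ) × ℕ × Bool) =>
      (x.1.1.1.getD (x.1.2 % x.1.1.1.length) true = true ∧ x.1.1.2 = true ∧ S₁ Z x.2) ∨
      (x.1.1.1.getD (x.1.2 % x.1.1.1.length) true = true ∧ x.1.1.2 = false ∧ S₂ Z x.2) ∨
      (x.1.1.1.getD (x.1.2 % x.1.1.1.length) true = false ∧ x.1.1.2 = true ∧ S₄ Z x.2) ∨
      (x.1.1.1.getD (x.1.2 % x.1.1.1.length) true = false ∧ x.1.1.2 = false ∧ S₃ Z x.2) :=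
    ((e (by fun_prop) (by fun_prop)).and ((e (by fun_prop) (by fun_prop)).and
      (h₁.comp Primrec.snd))).or
    (((e (by fun_prop) (by fun_prop)).and ((e (by fun_prop) (by fun_prop)).and
      (h₂.comp Primrec.snd))).or
    (((e (by fun_prop) (by fun_prop)).and ((e (by fun_prop) (by fun_prop)).and
      (h₄.comp Primrec.snd))).or
    ((e (by fun_prop) (by fun_prop)).and ((e (by fun_prop) (by fun_prop)).and
      (h₃.comp Primrec.snd)))))
  obtain ⟨Der, hDer, hD⟩ := exists_chain h₀ hS
  refine ⟨fun x => ∃ n : ℕ, Der ((x, n * x.1.length), k, !b₀) ∧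
    ∀ j < n + 1, Der (((x.1, !x.2), j * x.1.length), k, b₀), ?_, ?_⟩
  · exact Sig.ex (Sig.and (hDer.comp (by fun_prop)) (Sig.all (by fun_prop)
      (hDer.comp (by fun_prop))))
  intro w hw hne
  have hlen : 0 < w.length := by
    rcases w with _ | ⟨b, w⟩
    · exact absurd (sumw_nil r) hne
    · simp
  have hη : |sumw r w| ≤ 1 + r := by simpa using hw w.length
  have hη0 : 0 < |sumw r w| := abs_pos.2 hne
  -- correctness of `Der` along bounded walks
  have good : ∀ (s : Bool) (j : ℕ), j * |sumw r w| + (1 + r) < Λ → ∀ b,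
      Der (((w, s), j * w.length), k, b) ↔
        V (walk w s (j * w.length)).1 (walk w s (j * w.length)).2 k = b := by
    intro s j hj b
    have bd : ∀ i ≤ j * w.length, |((walk w s i).1 : ℝ) + (walk w s i).2 * r| < Λ := by
      intro i hi
      have h1 := walk_val r w s (i / w.length) (i % w.length) (Nat.mod_lt _ hlen).le
      rw [Nat.div_add_mod' i w.length] at h1
      rw [h1, abs_mul]
      have h2 : |(if s then (1 : ℝ) else -1)| = 1 := by cases s <;> simp
      have h3 : i / w.length ≤ j := Nat.div_le_of_le_mul (by rwa [mul_comm])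
      have h4 : ((i / w.length : ℕ) : ℝ) ≤ j := by exact_mod_cast h3
      rw [h2, one_mul]
      refine (abs_add_le _ _).trans_lt ?_
      rw [abs_mul, Nat.abs_cast]
      have := hw (i % w.length)
      nlinarith [mul_le_mul_of_nonneg_right h4 hη0.le]
    refine hD (w, s) (j * w.length) (fun i => V (walk w s i).1 (walk w s i).2) rfl ?_ k b
    intro i hi n b
    have b1 := bd i hi.le
    have b2 := bd (i + 1) hi
    simp only [walk] at b2 ⊢
    generalize w.getD (i % w.length) true = l at b2 ⊢
    generalize (walk w s i).1 = a at b1 b2 ⊢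
    generalize (walk w s i).2 = c at b1 b2 ⊢
    cases l <;> cases s <;> simp only [Bool.false_eq_true, if_false, if_true, false_and, true_and,
      false_or, or_false, Bool.true_eq_false] at b2 ⊢ <;> push_cast at b2
    · exact (hy a c b1 b2).1 n b
    · have := (hy a (c - 1) (by push_cast; exact b2) (by push_cast; simpa using b1)).2 n b
      simpa using this
    · have := (hx (a - 1) c (by push_cast; exact b2) (by push_cast; simpa using b1)).2 n b
      simpa using this
    · exact (hx a c b1 b2).1 n b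
  have val : ∀ (s : Bool) (j : ℕ), ((walk w s (j * w.length)).1 : ℝ) +
      (walk w s (j * w.length)).2 * r = j * ((if s then 1 else -1) * sumw r w) := fun s j => by
    have := walk_val r w s j 0 (Nat.zero_le _)
    simp only [add_zero, List.take_zero, sumw_nil] at this
    rw [this]
    ring
  obtain ⟨n₀, hn₀, hn₀'⟩ : ∃ n₀ : ℕ, α < n₀ * |sumw r w| ∧ n₀ * |sumw r w| ≤ α + (1 + r) := by
    refine ⟨⌊α / |sumw r w|⌋₊ + 1, ?_, ?_⟩
    · rw [← div_lt_iff₀ hη0]
      exact_mod_cast Nat.lt_floor_add_one _
    · have := Nat.floor_le (div_pos hα hη0).le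
      rw [le_div_iff₀ hη0] at this
      push_cast
      linarith
  have small : ∀ j ≤ n₀, (j : ℝ) * |sumw r w| ≤ α + (1 + r) := fun j hj =>
    (mul_le_mul_of_nonneg_right (by exact_mod_cast hj) hη0.le).trans hn₀'
  have key : ∀ s : Bool, (∃ n : ℕ, Der (((w, s), n * w.length), k, !b₀) ∧
      ∀ j < n + 1, Der (((w, !s), j * w.length), k, b₀)) ↔
        0 < (if s then 1 else -1) * sumw r w := by
    intro s
    have hs : (if (!s) then (1 : ℝ) else -1) * sumw r w = -((if s then 1 else -1) * sumw r w) := by
      cases s <;> simp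
    have habs : |(if s then (1 : ℝ) else -1) * sumw r w| = |sumw r w| := by cases s <;> simp
    have v1 := val s
    have v2 := val (!s)
    rw [hs] at v2
    generalize (if s then (1 : ℝ) else -1) * sumw r w = η at habs v1 v2
    constructor
    · rintro ⟨n, hn1, hn2⟩
      by_contra hle
      have hneg' : -η = |sumw r w| := by rw [← habs, abs_of_nonpos (not_lt.1 hle)]
      rcases le_or_gt n₀ n with h | h
      · have h1 := (good (!s) n₀ (by linarith) b₀).1 (hn2 n₀ (by omega))
        rw [hpos _ _ (by rw [v2, hneg']; exact hn₀) (by rw [v2, hneg']; linarith)] at h1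
        simp at h1
      · have h2 := small n h.le
        have h1 := (good s n (by linarith) _).1 hn1
        have h3 : (n : ℝ) * η = -(n * |sumw r w|) := by rw [← hneg']; ring
        have h4 : 0 ≤ (n : ℝ) * |sumw r w| := by positivity
        rw [hneg _ _ (by rw [v1, h3]; linarith) (by rw [v1, h3]; linarith)] at h1
        simp at h1
    · intro hpos'
      have hη' : η = |sumw r w| := by rw [← habs, abs_of_pos hpos']
      refine ⟨n₀, (good s n₀ (by linarith) _).2 ?_, fun j hj => ?_⟩
      · exact hpos _ _ (by rw [v1, hη']; exact hn₀) (by rw [v1, hη']; linarith)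
      · have h2 := small j (by omega)
        have h4 : 0 ≤ (j : ℝ) * |sumw r w| := by positivity
        have h3 : (j : ℝ) * -η = -(j * |sumw r w|) := by rw [hη']; ring
        exact (good (!s) j (by linarith) _).2
          (hneg _ _ (by rw [v2, h3]; linarith) (by rw [v2, h3]; linarith))
  constructor
  · simpa using key true
  · simpa using key false

end Crest.Agent.R292
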