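import Mathlib

/-!
# Row 292: Kuratowski–Ulam for `ℝ × ℝ`   (task R292-BaireA)

`ku`: by `mem_residual_iff` reduce to `M` dense open (countable intersections:
`eventually_countable_forall` / `countable_sInter_mem`, `residual` is a `CountableInterFilter`).
For `M` dense open and rationals `a < b`, `{x | ∃ y ∈ Ioo a b, (x, y) ∈ M}` is open and dense; for
`x` in all of them the section `{y | (x, y) ∈ M}` is open and dense.
`ku_swap`: `Homeomorph.prodComm`, `Homeomorph.residual_map_eq`.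
`ku_mul`: the preimage of a dense open set under `T (r, s) = (s, r * s)` is open and dense (on
`s ≠ 0` the map `T` has the continuous inverse `(s, t) ↦ (t / s, s)`), so `T` tends from `residual`
to `residual`; then `ku`.
-/

set_option autoImplicit false

namespace Crest.Agent.R292

open Filter Set

theorem ku_open {M : Set (ℝ × ℝ)} (ho : IsOpen M) (hd : Dense M) :
    ∀ᶠ x in residual ℝ, ∀ᶠ y in residual ℝ, (x, y) ∈ M := by
  have h1 : ∀ p : ℚ × ℚ, ∀ᶠ x in residual ℝ,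
      (p.1 : ℝ) < p.2 → ∃ y ∈ Ioo (p.1 : ℝ) p.2, (x, y) ∈ M := by
    intro p
    by_cases hp : (p.1 : ℝ) < p.2
    · have : Prod.fst '' (M ∩ univ ×ˢ Ioo (p.1 : ℝ) p.2) ∈ residual ℝ := by
        refine residual_of_dense_open
          (isOpenMap_fst _ (ho.inter (isOpen_univ.prod isOpen_Ioo))) (dense_iff_inter_open.2 ?_)
        intro U hU hne
        obtain ⟨z, hz, hz'⟩ := hd.inter_open_nonempty (U ×ˢ Ioo (p.1 : ℝ) p.2)
          (hU.prod isOpen_Ioo) (hne.prod (nonempty_Ioo.2 hp))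
        exact ⟨z.1, hz.1, z, ⟨hz', trivial, hz.2⟩, rfl⟩
      filter_upwards [this]
      rintro _ ⟨z, hz, rfl⟩ -
      exact ⟨z.2, hz.2.2, hz.1⟩
    · exact Eventually.of_forall fun _ h => absurd h hp
  filter_upwards [eventually_countable_forall.2 h1] with x hx
  refine residual_of_dense_open (ho.preimage (Continuous.prodMk_right x))
    (dense_of_exists_between fun a b hab => ?_)
  obtain ⟨q, hq1, hq2⟩ := exists_rat_btwn hab
  obtain ⟨q', hq3, hq4⟩ := exists_rat_btwn hq2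
  obtain ⟨y, hy, hy'⟩ := hx (q, q') hq3
  exact ⟨y, hy', hq1.trans hy.1, hy.2.trans hq4⟩

theorem ku_T_dense {M : Set (ℝ × ℝ)} (hd : Dense M) :
    Dense ((fun p : ℝ × ℝ => (p.2, p.1 * p.2)) ⁻¹' M) := by
  refine dense_iff_inter_open.2 fun U hU hne => ?_
  have h0 : IsOpen {p : ℝ × ℝ | p.1 ≠ 0} := isOpen_ne_fun continuous_fst continuous_const
  have h1 : ContinuousOn (fun p : ℝ × ℝ => (p.2 / p.1, p.1)) {p | p.1 ≠ 0} :=
    (continuousOn_snd.div continuousOn_fst fun _ h => h).prodMk continuousOn_fst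
  have h2 : Dense ((univ : Set ℝ) ×ˢ ({0}ᶜ : Set ℝ)) := dense_univ.prod (dense_compl_singleton 0)
  obtain ⟨z, hz, -, hz0⟩ := h2.inter_open_nonempty U hU hne
  have hz0 : z.2 ≠ 0 := hz0
  obtain ⟨w, ⟨hw0, hw⟩, hwM⟩ := hd.inter_open_nonempty _ (h1.isOpen_inter_preimage h0 hU)
    ⟨(z.2, z.1 * z.2), hz0, by simpa [mul_div_assoc, hz0] using hz⟩
  have hw0 : w.1 ≠ 0 := hw0
  exact ⟨_, hw, by simpa [hw0] using hwM⟩

theorem ku {M : Set (ℝ × ℝ)} (h : M ∈ residual (ℝ × ℝ)) :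
    ∀ᶠ x in residual ℝ, ∀ᶠ y in residual ℝ, (x, y) ∈ M := by
  obtain ⟨S, hSo, hSd, hSc, hS⟩ := mem_residual_iff.1 h
  have h1 : ∀ᶠ x in residual ℝ, ∀ t ∈ S, ∀ᶠ y in residual ℝ, (x, y) ∈ t :=
    (eventually_countable_ball hSc).2 fun t ht => ku_open (hSo t ht) (hSd t ht)
  filter_upwards [h1] with x hx
  filter_upwards [(eventually_countable_ball hSc).2 hx] with y hy
  exact hS hy

theorem ku_swap {M : Set (ℝ × ℝ)} (h : M ∈ residual (ℝ × ℝ)) :
    ∀ᶠ y in residual ℝ, ∀ᶠ x in residual ℝ, (x, y) ∈ M := by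
  rw [← (Homeomorph.prodComm ℝ ℝ).residual_map_eq] at h
  exact ku (M := (Homeomorph.prodComm ℝ ℝ) ⁻¹' M) h

theorem ku_mul {M : Set (ℝ × ℝ)} (h : M ∈ residual (ℝ × ℝ)) :
    ∀ᶠ r in residual ℝ, ∀ᶠ s in residual ℝ, (s, r * s) ∈ M := by
  refine ku (M := (fun p : ℝ × ℝ => (p.2, p.1 * p.2)) ⁻¹' M) ?_
  obtain ⟨S, hSo, hSd, hSc, hS⟩ := mem_residual_iff.1 h
  have h1 : ∀ᶠ p : ℝ × ℝ in residual (ℝ × ℝ), ∀ t ∈ S, (p.2, p.1 * p.2) ∈ t :=
    (eventually_countable_ball hSc).2 fun t ht =>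
      residual_of_dense_open ((hSo t ht).preimage (by fun_prop)) (ku_T_dense (hSd t ht))
  filter_upwards [h1] with x hx
  exact hS hx

end Crest.Agent.R292
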