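import Mathlib

/-!
# Row 292: category on the line   (task R292-BaireB)

`localize`: otherwise every rational interval contains... precisely: let `U` be the union of all
rational intervals `I` with `∀ᶠ x in residual, x ∈ I → ¬ P x`; the hypothesis' negation says `U` is
dense (and open), so `¬ P` holds on a residual set (countable intersection), contradiction.

`bit`: `{x | c x = true}` is residually equal to an open set (`MeasurableSet.residualEq_isOpen`), the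
same for `false`.  So whenever `c` is not residually equal to `b` on an open interval, there is a
subinterval on which it is residually `!b`.  Get intervals `I₀, I₁ ⊆ (u₀, u₁)` with `c = true`,
resp. `c = false` residually; they are disjoint (`BaireSpace`), call `b₀` the value on the left one,
`x₀` a point of it, `x₁` a point of the right one, and
`t₀ = sSup {t ≤ x₁ | ∀ᶠ x in residual, x ∈ Ioo x₀ t → c x = b₀}` (`x₀ < t₀ ≤ x₁`, in fact `t₀ ≤` the
left end of the right interval, which can be taken `< x₁`).  On `(x₀, t₀)` `c = b₀` residually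
(countable union), and on no `(t₀, t₀ + ε)` (points are meagre).  Take `L = min (t₀ - x₀) (u₁ - t₀)`.
-/

set_option autoImplicit false

namespace Crest.Agent.R292

open Filter Set

theorem residual_affine {P : ℝ → Prop} (h : ∀ᶠ x in residual ℝ, P x) {a : ℝ} (ha : a ≠ 0) (b : ℝ) :
    ∀ᶠ x in residual ℝ, P (a * x + b) := by
  let e := (Homeomorph.mulLeft₀ a ha).trans (Homeomorph.addRight b)
  exact (tendsto_residual_of_isOpenMap e.continuous e.isOpenMap).eventually h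

theorem residual_notMem_countable {S : Set ℝ} (h : S.Countable) : ∀ᶠ x in residual ℝ, x ∉ S := by
  have h1 : ∀ᶠ x in residual ℝ, ∀ s ∈ S, x ≠ s := (eventually_countable_ball h).2 fun s _ =>
    residual_of_dense_open isOpen_compl_singleton (dense_compl_singleton s)
  exact h1.mono fun x hx hx' => hx x hx' rfl

theorem frequently_Ioo {a b : ℝ} (h : a < b) : ∃ᶠ x in residual ℝ, x ∈ Ioo a b := by
  intro hn
  obtain ⟨x, hx, hx'⟩ := (dense_of_mem_residual hn).inter_open_nonempty _ isOpen_Ioo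
    (nonempty_Ioo.2 h)
  exact hx' hx

theorem frequently_pigeon {ι : Type} [Countable ι] {P : ι → ℝ → Prop}
    (h : ∃ᶠ x in residual ℝ, ∃ i, P i x) : ∃ i, ∃ᶠ x in residual ℝ, P i x := by
  by_contra hc
  have h1 : ∀ i, ∀ᶠ x in residual ℝ, ¬ P i x := fun i => not_frequently.1 fun h' => hc ⟨i, h'⟩
  exact h ((eventually_countable_forall.2 h1).mono fun x hx ⟨i, hi⟩ => hx i hi)

theorem ev_union (Q : ℝ → Prop) : ∀ᶠ x in residual ℝ, ∀ a b : ℝ,
    (∀ᶠ y in residual ℝ, y ∈ Ioo a b → Q y) → x ∈ Ioo a b → Q x := by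
  have h1 : ∀ p : ℚ × ℚ, ∀ᶠ x in residual ℝ,
      (∀ᶠ y in residual ℝ, y ∈ Ioo (p.1 : ℝ) p.2 → Q y) → x ∈ Ioo (p.1 : ℝ) p.2 → Q x := by
    intro p
    by_cases hp : ∀ᶠ y in residual ℝ, y ∈ Ioo (p.1 : ℝ) p.2 → Q y
    · exact hp.mono fun _ h _ => h
    · exact Eventually.of_forall fun _ h => absurd h hp
  filter_upwards [eventually_countable_forall.2 h1] with x hx a b hab hxab
  obtain ⟨q, hq1, hq2⟩ := exists_rat_btwn hxab.1
  obtain ⟨q', hq3, hq4⟩ := exists_rat_btwn hxab.2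
  exact hx (q, q') (hab.mono fun y hy hy' => hy ⟨hq1.trans hy'.1, hy'.2.trans hq4⟩) ⟨hq2, hq3⟩

/-- A non-meagre set is everywhere non-meagre in some interval. -/
theorem localize {P : ℝ → Prop} (h : ∃ᶠ x in residual ℝ, P x) :
    ∃ u₀ u₁ : ℝ, u₀ < u₁ ∧ ∀ a b : ℝ, u₀ ≤ a → a < b → b ≤ u₁ →
      ∃ᶠ x in residual ℝ, x ∈ Ioo a b ∧ P x := by
  by_contra hc
  have h1 : {x | ∃ a b : ℝ, (∀ᶠ y in residual ℝ, y ∈ Ioo a b → ¬ P y) ∧ x ∈ Ioo a b} ∈
      residual ℝ := by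
    refine residual_of_dense_open (isOpen_iff_mem_nhds.2 ?_)
      (dense_of_exists_between fun u₀ u₁ hu => ?_)
    · rintro x ⟨a, b, h1, h2⟩
      exact mem_of_superset (isOpen_Ioo.mem_nhds h2) fun y hy => ⟨a, b, h1, hy⟩
    · by_contra h2
      refine hc ⟨u₀, u₁, hu, fun a b k1 k2 k3 hn => h2 ⟨(a + b) / 2, ⟨a, b, ?_, ?_⟩, ?_⟩⟩
      · exact hn.mono fun y hy hy' hP => hy ⟨hy', hP⟩
      all_goals constructor <;> linarith
  refine h ?_
  filter_upwards [h1, ev_union fun x => ¬ P x]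
  rintro x ⟨a, b, k1, k2⟩ hx
  exact hx a b k1 k2

theorem bit_sub {c : ℝ → Bool} (hc : Measurable c) {a b : ℝ} {v : Bool}
    (h : ∃ᶠ x in residual ℝ, x ∈ Ioo a b ∧ c x = v) :
    ∃ α β, a < α ∧ α < β ∧ β < b ∧ ∀ᶠ x in residual ℝ, x ∈ Ioo α β → c x = v := by
  obtain ⟨U, hU, hcU⟩ := (hc (measurableSet_singleton v)).residualEq_isOpen
  have hcU : ∀ᶠ x in residual ℝ, c x = v ↔ x ∈ U := eventuallyEq_set.1 hcU
  obtain ⟨x, ⟨hx1, hx2⟩, hx3⟩ := (h.and_eventually hcU).exists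
  obtain ⟨l, u, hlu, hsub⟩ := mem_nhds_iff_exists_Ioo_subset.1
    ((isOpen_Ioo.inter hU).mem_nhds ⟨hx1, hx3.1 hx2⟩)
  obtain ⟨h1, h2⟩ := hlu
  refine ⟨(l + x) / 2, (x + u) / 2, (hsub ⟨by linarith, by linarith⟩).1.1, by linarith,
    (hsub ⟨by linarith, by linarith⟩).1.2, hcU.mono fun y hy hy' => hy.2 (hsub ?_).2⟩
  exact ⟨by linarith [hy'.1], by linarith [hy'.2]⟩

theorem bit_disj {c : ℝ → Bool} {a b a' b' : ℝ} {v : Bool}
    (h : ∀ᶠ x in residual ℝ, x ∈ Ioo a b → c x = v)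
    (h' : ∀ᶠ x in residual ℝ, x ∈ Ioo a' b' → c x = !v) : min b b' ≤ max a a' := by
  by_contra hc
  obtain ⟨x, hx, h1, h2⟩ := ((frequently_Ioo (not_le.1 hc)).and_eventually (h.and h')).exists
  have h3 := h1 ⟨(le_max_left _ _).trans_lt hx.1, hx.2.trans_le (min_le_left _ _)⟩
  have h4 := h2 ⟨(le_max_right _ _).trans_lt hx.1, hx.2.trans_le (min_le_right _ _)⟩
  rw [h3] at h4
  cases v <;> simp at h4

theorem bit_jump {c : ℝ → Bool} (hc : Measurable c) {u₀ u₁ a b a' b' : ℝ} {v : Bool}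
    (h1 : u₀ < a) (h2 : a < b) (h3 : b ≤ a') (h4 : a' < b') (h5 : b' < u₁)
    (h : ∀ᶠ x in residual ℝ, x ∈ Ioo a b → c x = v)
    (h' : ∀ᶠ x in residual ℝ, x ∈ Ioo a' b' → c x = !v) :
    ∃ (b₀ : Bool) (t₀ L α β : ℝ), 0 < L ∧ u₀ ≤ t₀ - L ∧ t₀ + L ≤ u₁ ∧ t₀ < α ∧ α < β ∧
      β < t₀ + L / 10 ∧ (∀ᶠ x in residual ℝ, x ∈ Ioo (t₀ - L) t₀ → c x = b₀) ∧
      (∀ᶠ x in residual ℝ, x ∈ Ioo α β → c x = !b₀) := by
  set T : Set ℝ := {t | ∀ᶠ x in residual ℝ, x ∈ Ioo a t → c x = v} with hT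
  have hb : b ∈ T := h
  have hub : ∀ t ∈ T, t ≤ a' := fun t ht => by
    have := bit_disj ht h'
    rw [max_eq_right (h2.le.trans h3)] at this
    rcases min_le_iff.1 this with h6 | h6
    · exact h6
    · exact absurd h6 (not_le.2 h4)
  have hbd : BddAbove T := ⟨a', hub⟩
  have h6 : b ≤ sSup T := le_csSup hbd hb
  have h7 : sSup T ≤ a' := csSup_le ⟨b, hb⟩ hub
  have h8 : ∀ᶠ x in residual ℝ, x ∈ Ioo a (sSup T) → c x = v := by
    filter_upwards [ev_union fun x => c x = v] with x hx hx'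
    obtain ⟨t, ht, hxt⟩ := exists_lt_of_lt_csSup ⟨b, hb⟩ hx'.2
    exact hx a t ht ⟨hx'.1, hxt⟩
  have hL : 0 < min (sSup T - a) (u₁ - sSup T) := lt_min (by linarith) (by linarith)
  have hL1 := min_le_left (sSup T - a) (u₁ - sSup T)
  have hL2 := min_le_right (sSup T - a) (u₁ - sSup T)
  set L := min (sSup T - a) (u₁ - sSup T)
  have h9 : ∃ᶠ x in residual ℝ, x ∈ Ioo (sSup T) (sSup T + L / 10) ∧ c x = !v := by
    intro hn
    have : sSup T + L / 10 ∈ T := by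
      filter_upwards [hn, h8, residual_notMem_countable (countable_singleton (sSup T))]
        with x k1 k2 k3 k4
      rcases lt_or_gt_of_ne k3 with k5 | k5
      · exact k2 ⟨k4.1, k5⟩
      · by_contra k6
        exact k1 ⟨⟨k5, k4.2⟩, Bool.eq_not_of_ne k6⟩
    linarith [le_csSup hbd this]
  obtain ⟨α, β, k1, k2, k3, k4⟩ := bit_sub hc h9
  exact ⟨v, sSup T, L, α, β, hL, by linarith, by linarith, k1, k2, k3,
    h8.mono fun x hx hx' => hx ⟨by linarith [hx'.1], hx'.2⟩, k4⟩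

/-- A Borel two-colouring that is not generically constant on an interval has a generic jump. -/
theorem bit {c : ℝ → Bool} (hc : Measurable c) {u₀ u₁ : ℝ}
    (h : ∀ b : Bool, ∃ᶠ x in residual ℝ, x ∈ Ioo u₀ u₁ ∧ c x = b) :
    ∃ (b₀ : Bool) (t₀ L α β : ℝ), 0 < L ∧ u₀ ≤ t₀ - L ∧ t₀ + L ≤ u₁ ∧ t₀ < α ∧ α < β ∧
      β < t₀ + L / 10 ∧ (∀ᶠ x in residual ℝ, x ∈ Ioo (t₀ - L) t₀ → c x = b₀) ∧
      (∀ᶠ x in residual ℝ, x ∈ Ioo α β → c x = !b₀) := by
  obtain ⟨a, b, h1, h2, h3, h4⟩ := bit_sub hc (h true)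
  obtain ⟨a', b', k1, k2, k3, k4⟩ := bit_sub hc (h false)
  rcases min_le_iff.1 (bit_disj h4 k4) with h7 | h7 <;> rcases le_max_iff.1 h7 with h8 | h8
  · linarith
  · exact bit_jump hc h1 h2 h8 k2 k3 h4 k4
  · exact bit_jump (v := false) hc k1 k2 h8 h2 h3 k4 h4
  · linarith

end Crest.Agent.R292
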