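import Crest.Agent.R292.Sig
import Crest.Prelude.Def_SetDegree

/-!
# Row 292: Mathlib's Turing reducibility implies `Red`   (task R292-BridgeA)

Plan: induction on `Nat.RecursiveIn`; the graph of `f` is `Sig Y`.
* `zero/succ/left/right`: `Sig.of_primrecPred`;  `oracle`: `v ∈ charFun .. n ↔ (Y n = true ∧ v = 1) ∨
  (Y n = false ∧ v = 0)`;
* `pair`: `v.unpair.1 ∈ f n ∧ v.unpair.2 ∈ h n`;  `comp`: `∃ u, u ∈ h n ∧ v ∈ f u`;
* `prec`: `v ∈ F (pair a n) ↔ ∃ l : List ℕ, l.getD 0 0 ∈ f a ∧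
  (∀ i < n, l.getD (i+1) 0 ∈ h (pair a (pair i (l.getD i 0)))) ∧ l.getD n 0 = v`
  (→ induction on `n` producing a function `ℕ → ℕ` first, then `(List.range (n+1)).map`);
* `rfind`: `Nat.mem_rfind`: `0 ∈ f (pair a n) ∧ ∀ m < n, ∃ u, u ≠ 0 ∧ u ∈ f (pair a m)`.
-/

set_option autoImplicit false

namespace Crest.Agent.R292

open Crest.LogicCS.Degrees

theorem bridgeA_prec (s : Part ℕ) (h : ℕ → ℕ → Part ℕ) (n v : ℕ) :
    v ∈ (Nat.rec s (fun y IH => IH >>= fun i => h y i) n : Part ℕ) ↔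
      ∃ l : List ℕ, l.getD 0 0 ∈ s ∧ (∀ i < n, l.getD (i + 1) 0 ∈ h i (l.getD i 0)) ∧
        l.getD n 0 = v := by
  have h1 : ∀ n v : ℕ, v ∈ (Nat.rec s (fun y IH => IH >>= fun i => h y i) n : Part ℕ) ↔
      ∃ g : ℕ → ℕ, g 0 ∈ s ∧ (∀ i < n, g (i + 1) ∈ h i (g i)) ∧ g n = v := by
    intro n
    induction n with
    | zero =>
      intro v
      exact ⟨fun hv => ⟨fun _ => v, hv, fun i hi => absurd hi (Nat.not_lt_zero _), rfl⟩,
        fun ⟨g, h1, _, h2⟩ => h2 ▸ h1⟩
    | succ n ih =>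
      intro v
      simp only [Part.bind_eq_bind, Part.mem_bind_iff] at ih ⊢
      constructor
      · rintro ⟨u, hu, hv⟩
        obtain ⟨g, g0, g1, rfl⟩ := (ih u).1 hu
        refine ⟨Function.update g (n + 1) v, ?_, fun i hi => ?_, Function.update_self _ _ _⟩
        · rwa [Function.update_of_ne (by omega)]
        · rcases Nat.lt_succ_iff_lt_or_eq.1 hi with hi | rfl
          · rw [Function.update_of_ne (by omega), Function.update_of_ne (by omega)]
            exact g1 i hi
          · rwa [Function.update_self, Function.update_of_ne (by omega)]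
      · rintro ⟨g, g0, g1, rfl⟩
        exact ⟨g n, (ih _).2 ⟨g, g0, fun i hi => g1 i (by omega), rfl⟩, g1 n (Nat.lt_succ_self n)⟩
  rw [h1]
  constructor
  · rintro ⟨g, g0, g1, g2⟩
    have e : ∀ i ≤ n, ((List.range (n + 1)).map g).getD i 0 = g i := fun i hi => by
      simp [List.getD_eq_getElem?_getD, Nat.lt_succ_of_le hi]
    refine ⟨(List.range (n + 1)).map g, ?_, fun i hi => ?_, ?_⟩
    · rwa [e 0 (Nat.zero_le _)]
    · rw [e _ hi, e _ hi.le]
      exact g1 i hi
    · rwa [e n le_rfl]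
  · rintro ⟨l, h⟩
    exact ⟨fun i => l.getD i 0, h⟩

theorem bridgeA_charFun (Y : Orc) (n v : ℕ) :
    v ∈ charFun {n | Y n = true} n ↔ (Y n = true ∧ v = 1) ∨ (Y n = false ∧ v = 0) := by
  unfold charFun
  rw [Part.mem_some_iff]
  cases h : Y n
  · rw [Set.indicator_of_notMem (by simp [h])]
    simp
  · rw [Set.indicator_of_mem (by simp [h])]
    simp

theorem sig_graph_of_recursiveIn {Y : Orc} {f : ℕ →. ℕ}
    (hf : Nat.RecursiveIn {charFun {n | Y n = true}} f) :
    Sig Y fun p : ℕ × ℕ => p.2 ∈ f p.1 := by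
  have u1 : Primrec fun n : ℕ => n.unpair.1 := Primrec.fst.comp Primrec.unpair
  have u2 : Primrec fun n : ℕ => n.unpair.2 := Primrec.snd.comp Primrec.unpair
  induction hf with
  | zero =>
    refine (Sig.of_primrecPred (Primrec.eq.comp Primrec.snd (Primrec.const 0))).congr fun p => ?_
    exact Part.mem_some_iff.symm
  | succ =>
    refine (Sig.of_primrecPred (Primrec.eq.comp Primrec.snd
      (Primrec.succ.comp Primrec.fst))).congr fun p => ?_
    exact Part.mem_some_iff.symm
  | left =>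
    refine (Sig.of_primrecPred (Primrec.eq.comp Primrec.snd (u1.comp Primrec.fst))).congr
      fun p => ?_
    exact Part.mem_some_iff.symm
  | right =>
    refine (Sig.of_primrecPred (Primrec.eq.comp Primrec.snd (u2.comp Primrec.fst))).congr
      fun p => ?_
    exact Part.mem_some_iff.symm
  | oracle g hg =>
    obtain rfl := Set.mem_singleton_iff.1 hg
    refine (((Sig.query Primrec.fst (Primrec.const true)).and
      (Sig.of_primrecPred (Primrec.eq.comp Primrec.snd (Primrec.const 1)))).or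
      ((Sig.query Primrec.fst (Primrec.const false)).and
      (Sig.of_primrecPred (Primrec.eq.comp Primrec.snd (Primrec.const 0))))).congr fun p => ?_
    exact (bridgeA_charFun Y p.1 p.2).symm
  | @pair f h _ _ ihf ihh =>
    refine ((ihf.comp (Primrec.fst.pair (u1.comp Primrec.snd))).and
      (ihh.comp (Primrec.fst.pair (u2.comp Primrec.snd)))).congr fun p => ?_
    simp only [Seq.seq, Part.map_eq_map, Part.bind_eq_bind, Part.mem_bind_iff, Part.mem_map_iff]
    constructor
    · rintro ⟨h1, h2⟩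
      exact ⟨_, ⟨_, h1, rfl⟩, _, h2, Nat.pair_unpair _⟩
    · rintro ⟨_, ⟨a, ha, rfl⟩, b, hb, e⟩
      rw [← e, Nat.unpair_pair]
      exact ⟨ha, hb⟩
  | @comp f h _ _ ihf ihh =>
    refine (((ihh.comp (β := (ℕ × ℕ) × ℕ) ((Primrec.fst.comp Primrec.fst).pair Primrec.snd)).and
      (ihf.comp (Primrec.snd.pair (Primrec.snd.comp Primrec.fst)))).exists).congr fun p => ?_
    simp only [Part.bind_eq_bind, Part.mem_bind_iff]
  | @prec f h _ _ ihf ihh =>
    have g0 := Primrec.list_getD (0 : ℕ)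
    have a1 : Sig Y fun x : (ℕ × ℕ) × List ℕ => x.2.getD 0 0 ∈ f x.1.1.unpair.1 :=
      ihf.comp ((u1.comp (Primrec.fst.comp Primrec.fst)).pair
        (g0.comp Primrec.snd (Primrec.const 0)))
    have a2 : Sig Y fun x : ((ℕ × ℕ) × List ℕ) × ℕ => x.1.2.getD (x.2 + 1) 0 ∈
        h (Nat.pair x.1.1.1.unpair.1 (Nat.pair x.2 (x.1.2.getD x.2 0))) :=
      ihh.comp ((Primrec₂.natPair.comp (u1.comp (Primrec.fst.comp (Primrec.fst.comp Primrec.fst)))
        (Primrec₂.natPair.comp Primrec.snd (g0.comp (Primrec.snd.comp Primrec.fst) Primrec.snd))).pair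
        (g0.comp (Primrec.snd.comp Primrec.fst) (Primrec.succ.comp Primrec.snd)))
    have a3 := a2.ball (g := fun x : (ℕ × ℕ) × List ℕ => x.1.1.unpair.2)
      (u2.comp (Primrec.fst.comp Primrec.fst))
    have a4 : Sig Y fun x : (ℕ × ℕ) × List ℕ => x.2.getD x.1.1.unpair.2 0 = x.1.2 :=
      Sig.of_primrecPred (Primrec.eq.comp (g0.comp Primrec.snd
        (u2.comp (Primrec.fst.comp Primrec.fst))) (Primrec.snd.comp Primrec.fst))
    refine (a1.and (a3.and a4)).exists.congr fun p => ?_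
    exact (bridgeA_prec (f p.1.unpair.1)
      (fun y i => h (Nat.pair p.1.unpair.1 (Nat.pair y i))) p.1.unpair.2 p.2).symm
  | @rfind f _ ih =>
    have a1 : Sig Y fun x : ℕ × ℕ => 0 ∈ f (Nat.pair x.1 x.2) :=
      ih.comp ((Primrec₂.natPair.comp Primrec.fst Primrec.snd).pair (Primrec.const 0))
    have a2 : Sig Y fun x : ((ℕ × ℕ) × ℕ) × ℕ => x.2 ∈ f (Nat.pair x.1.1.1 x.1.2) :=
      ih.comp ((Primrec₂.natPair.comp (Primrec.fst.comp (Primrec.fst.comp Primrec.fst))
        (Primrec.snd.comp Primrec.fst)).pair Primrec.snd)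
    have a3 : Sig Y fun x : ((ℕ × ℕ) × ℕ) × ℕ => ¬ x.2 = 0 :=
      Sig.of_primrecPred (Primrec.eq.comp Primrec.snd (Primrec.const 0)).not
    have a4 := (a2.and a3).exists.ball (g := fun x : ℕ × ℕ => x.2) Primrec.snd
    refine (a1.and a4).congr fun p => ?_
    rw [Nat.mem_rfind]
    simp only [Part.map_eq_map, Part.mem_map_iff, decide_eq_true_eq, decide_eq_false_iff_not,
      exists_eq_right]

theorem red_of_setReducible {X Y : Orc}
    (h : SetReducible {n | X n = true} {n | Y n = true}) : Red X Y := by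
  have h1 := sig_graph_of_recursiveIn (RecursiveIn.iff_nat.1 h)
  refine red_of_two ?_ ?_
  · refine (h1.comp (Primrec.id.pair (Primrec.const 1))).congr fun n => ?_
    simp only [id, bridgeA_charFun]
    simp
  · refine (h1.comp (Primrec.id.pair (Primrec.const 0))).congr fun n => ?_
    simp only [id, bridgeA_charFun]
    simp

end Crest.Agent.R292
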