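import Crest.Agent.R292.Sig
import Crest.Prelude.Def_SetDegree

/-!
# Row 292: `Red` implies Mathlib's Turing reducibility   (task R292-BridgeB)

Plan (`O = {charFun {n | Y n = true}}`, use `RecursiveIn.iff_nat`):
1. `M ↦ encode (pre Y M)` (or of its reverse) is `Nat.RecursiveIn O`: `prec` with the oracle and a
   primitive recursive step (`Nat.Primrec.recursiveIn`, `Nat.RecursiveIn.pair/comp/of_eq`).
2. With `X n = b ↔ ∃ M, R (n,b) (pre Y M)`, the total function
   `t (pair n k) = if R (n, k.bodd) (pre Y k.div2) then 0 else 1` is recursive in `O`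
   (primitive recursive in `(n, k, encode (pre Y k.div2))`).
3. `rfind` of `t` halts for every `n`, and any `k` found has `k.bodd = X n`; compose with
   `k ↦ k % 2`.
-/

set_option autoImplicit false

namespace Crest.Agent.R292

open Crest.LogicCS.Degrees

/-- total functions recursive in `O` -/
def BTR (O : Set (ℕ →. ℕ)) (g : ℕ → ℕ) : Prop := Nat.RecursiveIn O fun n => Part.some (g n)

theorem BTR.prim {O : Set (ℕ →. ℕ)} {g : ℕ → ℕ} (h : Primrec g) : BTR O g :=
  Nat.Primrec.recursiveIn (Primrec.nat_iff.1 h)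

theorem BTR.comp {O : Set (ℕ →. ℕ)} {f g : ℕ → ℕ} (hf : BTR O f) (hg : BTR O g) :
    BTR O fun n => f (g n) :=
  (Nat.RecursiveIn.comp hf hg).of_eq fun n => by simp

theorem BTR.pair {O : Set (ℕ →. ℕ)} {f g : ℕ → ℕ} (hf : BTR O f) (hg : BTR O g) :
    BTR O fun n => Nat.pair (f n) (g n) :=
  (Nat.RecursiveIn.pair hf hg).of_eq fun n => by simp [Seq.seq]

theorem BTR.prec {O : Set (ℕ →. ℕ)} {h : ℕ → ℕ} (hh : BTR O h) (s : ℕ) {g : ℕ → ℕ} (g0 : g 0 = s)
    (g1 : ∀ n, g (n + 1) = h (Nat.pair n (g n))) : BTR O g := by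
  have h1 : BTR O fun p => h p.unpair.2 := hh.comp (BTR.prim (Primrec.snd.comp Primrec.unpair))
  have h2 := Nat.RecursiveIn.prec (BTR.prim (O := O) (Primrec.const s)) h1
  have h3 : BTR O fun n => Nat.pair 0 n :=
    BTR.prim (Primrec₂.natPair.comp (Primrec.const 0) Primrec.id)
  refine (Nat.RecursiveIn.comp h2 h3).of_eq fun n => ?_
  simp only [Part.bind_eq_bind, Part.bind_some, Nat.unpair_pair]
  induction n with
  | zero => rw [g0]; rfl
  | succ n ih =>
    rw [g1]
    show (Part.bind _ _) = _
    rw [ih, Part.bind_some]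

theorem bridgeB_oracle (Y : Orc) :
    BTR {charFun {n | Y n = true}} fun n => if Y n = true then 1 else 0 :=
  (Nat.RecursiveIn.oracle _ (Set.mem_singleton _)).of_eq fun n => by
    unfold charFun
    beta_reduce
    by_cases h : Y n = true
    · rw [Set.indicator_of_mem (by exact h), if_pos h]
    · rw [Set.indicator_of_notMem (by exact h), if_neg h]

theorem bridgeB_pre (Y : Orc) :
    BTR {charFun {n | Y n = true}} fun M => Encodable.encode (pre Y M) := by
  have u1 : Primrec fun n : ℕ => n.unpair.1 := Primrec.fst.comp Primrec.unpair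
  have u2 : Primrec fun n : ℕ => n.unpair.2 := Primrec.snd.comp Primrec.unpair
  have s : Primrec fun p : ℕ => Encodable.encode
      (((Encodable.decode (α := List Bool) p.unpair.2).getD []) ++ [decide (p.unpair.1 = 1)]) :=
    Primrec.encode.comp (Primrec.list_concat.comp
      (Primrec.option_getD.comp (Primrec.decode.comp u2) (Primrec.const []))
      (PrimrecPred.decide (Primrec.eq.comp u1 (Primrec.const 1))))
  have h := (BTR.prim s).comp (((bridgeB_oracle Y).comp (BTR.prim u1)).pair (BTR.prim u2))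
  refine h.prec _ rfl fun n => ?_
  simp only [Nat.unpair_pair, Encodable.encodek, Option.getD_some, Encodable.encode_inj]
  cases hY : Y n <;> simp [pre, List.range_succ, hY]

theorem setReducible_of_red {X Y : Orc} (h : Red X Y) :
    SetReducible {n | X n = true} {n | Y n = true} := by
  classical
  have u1 : Primrec fun n : ℕ => n.unpair.1 := Primrec.fst.comp Primrec.unpair
  have u2 : Primrec fun n : ℕ => n.unpair.2 := Primrec.snd.comp Primrec.unpair
  obtain ⟨Q, ⟨R, hR, hQ⟩, hX⟩ := h
  have s : Primrec fun p : ℕ => if R (p.unpair.1.unpair.1, p.unpair.1.unpair.2.bodd)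
      ((Encodable.decode (α := List Bool) p.unpair.2).getD []) then 0 else 1 :=
    Primrec.ite (hR.comp ((u1.comp u1).pair (Primrec.nat_bodd.comp (u2.comp u1)))
      (Primrec.option_getD.comp (Primrec.decode.comp u2) (Primrec.const [])))
      (Primrec.const 0) (Primrec.const 1)
  have t := (BTR.prim s).comp ((BTR.prim Primrec.id).pair
    ((bridgeB_pre Y).comp (BTR.prim (Primrec.nat_div2.comp u2))))
  have r := Nat.RecursiveIn.comp
    (BTR.prim (g := fun k => if k.bodd = true then 1 else 0)
      (Primrec.ite (Primrec.eq.comp Primrec.nat_bodd (Primrec.const true)) (Primrec.const 1)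
        (Primrec.const 0))) (Nat.RecursiveIn.rfind t)
  refine RecursiveIn.iff_nat.2 (r.of_eq fun n => ?_)
  simp only [id, Nat.unpair_pair, Encodable.encodek, Option.getD_some, Part.map_eq_map,
    Part.map_some, Part.bind_eq_bind]
  obtain ⟨M, hM⟩ := (hQ Y (n, X n)).1 ((hX n _).1 rfl)
  obtain ⟨k, hk, -⟩ := Nat.rfind_min' (p := fun k : ℕ =>
    decide ((if R (n, k.bodd) (pre Y k.div2) then 0 else 1) = 0)) (m := Nat.bit (X n) M)
    (by simp [hM])
  have hk2 : R (n, k.bodd) (pre Y k.div2) := by
    have := Nat.rfind_spec hk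
    simpa using this
  have hk3 : X n = k.bodd := (hX n _).2 ((hQ Y _).2 ⟨_, hk2⟩)
  have hk4 := Part.eq_some_iff.2 hk
  erw [hk4]
  rw [Part.bind_some, ← hk3]
  unfold charFun
  by_cases h : X n = true
  · rw [Set.indicator_of_mem (by exact h), if_pos h]
  · rw [Set.indicator_of_notMem (by exact h), if_neg h]

end Crest.Agent.R292
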