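import Crest.Agent.R292.Red

/-!
# Row 292: the coding family   (task R292-Code)

Plan (Baire category in `ℕ → Bool → ℕ → Bool`, or a direct finite-extension recursion).
For a `USig` operator `Q` (`Q Y x ↔ ∃ M, R x (pre Y M)`, enumerate them by `exists_enum_op`) and
`n : ℕ` let `U Q n` be the set of `A` such that some neighbourhood (finitely many coordinates) of
`A` consists of `A'` with `∀ Z, ¬ Maps Q (col A' Z) (A' n (!Z n))` — i.e. the interior of
`{A | ∀ Z, ¬ Maps Q (col A Z) (A n (!Z n))}`.  It is dense: given `A₀` and a finite set of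
coordinates, choose `N > n` above all the columns mentioned.  A *condition* is `(A, K)` (fix
`A m i k` for `m, k < K`) where moreover `A m true = A m false` for `m ≥ N`.  Handle the finitely many
patterns `τ : Fin N → Bool` one after the other (induction over a list of all patterns): given
`(A, K)` take `x ≥ K`.  If some `G` agreeing with `col A τ` on the fixed coordinates has
`Q G (x, b)` for some `b`, with use `M` (`USig.use`), modify `A` on the columns `A m (τ m)`, `m < N`
and on both `A m true, A m false` for `m ≥ N` to agree with `G`, set `A n (!τ n) x := !b`, and enlarge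
`K` above `x` and `M` (`unpair` of `k < M` is `< M`... use `K' > max x M`).  Otherwise no `G`
extending the condition has `Q G (x, _)`, and `Maps` fails at `x`.  In both cases all `A'` agreeing
with the final condition and all `Z` extending `τ` satisfy `¬ Maps Q (col A' Z) (A' n (!Z n))`,
because `col A' Z` agrees with `col A τ` on fixed coordinates (columns `≥ N` do not depend on `Z`).
Finish with `dense_iInter_of_isOpen` / `residual`.
-/

set_option autoImplicit false

namespace Crest.Agent.R292

/-- `A'` agrees with `A` on the coordinates below `K`. -/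
def Agree (K : ℕ) (A A' : ℕ → Bool → Orc) : Prop := ∀ m < K, ∀ i, ∀ j < K, A' m i j = A m i j

theorem Agree.refl (K : ℕ) (A : ℕ → Bool → Orc) : Agree K A A := fun _ _ _ _ _ => rfl

theorem Agree.trans {K K' : ℕ} {A A' A'' : ℕ → Bool → Orc} (h : Agree K A A') (hK : K ≤ K')
    (h' : Agree K' A' A'') : Agree K A A'' := fun m hm i j hj =>
  (h' m (by omega) i j (by omega)).trans (h m hm i j hj)

/-- The condition `(A, K)` forces the requirement `(Q, n)` for all `Z` agreeing with `T` below `N`. -/
def Good (Q : Op) (n N : ℕ) (T : Orc) (A : ℕ → Bool → Orc) (K : ℕ) : Prop :=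
  ∀ A', Agree K A A' → ∀ Z : Orc, (∀ m < N, Z m = T m) → ¬ Maps Q (col A' Z) (A' n (!Z n))

theorem Good.mono {Q : Op} {n N : ℕ} {T : Orc} {A A' : ℕ → Bool → Orc} {K K' : ℕ}
    (h : Good Q n N T A K) (hK : K ≤ K') (hA : Agree K A A') : Good Q n N T A' K' :=
  fun A'' h' => h A'' (hA.trans hK h')

theorem code_step {Q : Op} (hQ : USig Q) {n N : ℕ} (hn : n < N) (T : Orc) {A : ℕ → Bool → Orc}
    {K : ℕ} (hK : N ≤ K) (hs : ∀ m, N ≤ m → ∀ i i', A m i = A m i') :
    ∃ A' K', K ≤ K' ∧ Agree K A A' ∧ (∀ m, N ≤ m → ∀ i i', A' m i = A' m i') ∧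
      Good Q n N T A' K' := by
  classical
  by_cases hc : ∃ (G : Orc) (b : Bool),
      (∀ m < K, ∀ j < K, G (Nat.pair m j) = A m (T m) j) ∧ Q G (K, b)
  · obtain ⟨G, b, hG, hb⟩ := hc
    obtain ⟨M, hM⟩ := hQ.use hb
    refine ⟨fun m i j => if m = n ∧ i = !T n then (if j = K then !b else A m i j)
      else if m < N ∧ i ≠ T m then A m i j else G (Nat.pair m j), max (K + 1) M,
      by omega, ?_, ?_, ?_⟩
    · intro m hm i j hj
      simp only
      split_ifs with h1 h2 h3
      · omega
      · rfl
      · rfl
      · rw [hG m hm j hj]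
        by_cases h4 : m < N
        · have : i = T m := by
            by_contra h5
            exact h3 ⟨h4, h5⟩
          rw [this]
        · rw [hs m (by omega) (T m) i]
    · intro m hm i i'
      funext j
      simp only
      rw [if_neg (by omega), if_neg (by omega), if_neg (by omega), if_neg (by omega)]
    · intro A' hA' Z hZ hmap
      have h1 : Q (col A' Z) (K, b) := by
        apply hM
        intro k hk
        have h2 := k.unpair_left_le
        have h3 := k.unpair_right_le
        unfold col
        rw [hA' _ (by omega) _ _ (by omega)]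
        simp only
        rw [if_neg, if_neg, Nat.pair_unpair]
        · rintro ⟨h4, h5⟩
          exact h5 (hZ _ h4)
        · rintro ⟨h4, h5⟩
          rw [h4, hZ n hn] at h5
          simp at h5
      have h2 := (hmap K b).2 h1
      rw [hA' n (by omega) _ K (by omega), hZ n hn] at h2
      simp at h2
  · refine ⟨A, K, le_rfl, Agree.refl _ _, hs, fun A' hA' Z hZ hmap => hc ⟨col A' Z, _, ?_,
      (hmap K _).1 rfl⟩⟩
    intro m hm j hj
    simp only [col, Nat.unpair_pair]
    rw [hA' m hm _ j hj]
    by_cases h4 : m < N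
    · rw [hZ m h4]
    · rw [hs m (by omega) (T m) (Z m)]

theorem code_ext {Q : Op} (hQ : USig Q) (n : ℕ) (A : ℕ → Bool → Orc) (K : ℕ) :
    ∃ A' K', K < K' ∧ Agree K A A' ∧
      ∀ A'', Agree K' A' A'' → ∀ Z : Orc, ¬ Maps Q (col A'' Z) (A'' n (!Z n)) := by
  classical
  obtain ⟨N, hnN, hKN⟩ : ∃ N, n < N ∧ K < N := ⟨max n K + 1, by omega, by omega⟩
  have key : ∀ s : Finset (Fin N → Bool), ∃ A' K', N ≤ K' ∧ Agree K A A' ∧
      (∀ m, N ≤ m → ∀ i i', A' m i = A' m i') ∧
      ∀ τ ∈ s, Good Q n N (fun m => if h : m < N then τ ⟨m, h⟩ else false) A' K' := by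
    intro s
    induction s using Finset.induction_on with
    | empty =>
      refine ⟨fun m i j => if m < N then A m i j else false, N, le_rfl, ?_, ?_, by simp⟩
      · intro m hm i j _
        simp only
        rw [if_pos (by omega)]
      · intro m hm i i'
        funext j
        simp only
        rw [if_neg (by omega), if_neg (by omega)]
    | insert τ s _ ih =>
      obtain ⟨A₁, K₁, h1, h2, h3, h4⟩ := ih
      obtain ⟨A₂, K₂, g1, g2, g3, g4⟩ :=
        code_step hQ hnN (fun m => if h : m < N then τ ⟨m, h⟩ else false) h1 h3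
      refine ⟨A₂, K₂, by omega, h2.trans (by omega) g2, g3, fun τ' hτ' => ?_⟩
      rcases Finset.mem_insert.1 hτ' with rfl | h5
      · exact g4
      · exact (h4 τ' h5).mono g1 g2
  obtain ⟨A', K', h1, h2, -, h4⟩ := key Finset.univ
  exact ⟨A', K', by omega, h2, fun A'' hA'' Z =>
    h4 (fun m => Z m) (Finset.mem_univ _) A'' hA'' Z fun m hm => by simp [hm]⟩

theorem exists_family :
    ∃ A : ℕ → Bool → Orc, ∀ (Z : Orc) (n : ℕ), ¬ Red (A n (!Z n)) (col A Z) := by
  obtain ⟨E, hE, hEs⟩ := exists_enum_op
  choose fA fK h1 h2 h3 using fun (e : ℕ) (c : (ℕ → Bool → Orc) × ℕ) =>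
    code_ext (hE e.unpair.1) e.unpair.2 c.1 c.2
  let c : ℕ → (ℕ → Bool → Orc) × ℕ := fun s =>
    Nat.rec (fun _ _ _ => false, 0) (fun e c => (fA e c, fK e c)) s
  have hc : ∀ s, c (s + 1) = (fA s (c s), fK s (c s)) := fun s => rfl
  have hK : StrictMono fun s => (c s).2 := strictMono_nat_of_lt_succ fun s => h1 s (c s)
  have hA : ∀ s t, s ≤ t → Agree (c s).2 (c s).1 (c t).1 := by
    intro s t hst
    induction t, hst using Nat.le_induction with
    | base => exact Agree.refl _ _
    | succ t hst ih => exact ih.trans (hK.monotone hst) (h2 t (c t))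
  refine ⟨fun m i j => (c (max m j + 1)).1 m i j, fun Z n ⟨Q, hQ, hmap⟩ => ?_⟩
  obtain ⟨e, rfl⟩ := hEs Q hQ
  have h4 := h3 (Nat.pair e n) (c (Nat.pair e n)) (fun m i j => (c (max m j + 1)).1 m i j) ?_ Z
  · simp only [Nat.unpair_pair] at h4
    exact h4 hmap
  · intro m hm i j hj
    have h5 : max m j + 1 ≤ (c (max m j + 1)).2 := hK.id_le (max m j + 1)
    rcases le_total (Nat.pair e n + 1) (max m j + 1) with h | h
    · exact hA _ _ h m hm i j hj
    · exact (hA _ _ h m (by omega) i j (by omega)).symm

end Crest.Agent.R292
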