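import Crest.Agent.R292.Code

/-!
# Row 292: an automorphism is covered by countably many Borel maps   (task R292-Cover)

Plan: take `A` from `exists_family` and `C k = A k.unpair.1 (k.unpair.2).bodd (k.unpair.2).div2`
(any coding of all `A n i`).  `col A Z ≤ join Z C` for every `Z`, and `A n (Z n) ≤ col A Z`.
For `Z = p (cut x)`: `q (col A Z) ≤ join (q Z) (q C) ≤ join (cut x) (q C)` (`Aut.red_join` for
`h.symm`, `qp_le`), say via `E e` (`exists_enum_op`).  Put
`W e x m = decide (E e (join (cut x) (q C)) (m, true))` and
`F e x n = decide (Red (q (A n true)) (W e x))`.  Then `W e x = q (col A Z)` and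
`Z n = true ↔ A n true ≤ col A Z ↔ q (A n true) ≤ q (col A Z)`.  Measurability:
`measurable_pi_iff`, `measurableSet_usig`, `measurableSet_red`, `measurable_join`, `measurable_cut`,
`measurable_to_bool`/`measurable_decide`.
-/

set_option autoImplicit false

namespace Crest.Agent.R292

theorem cover_measurable_decide {γ : Type} [MeasurableSpace γ] {P : γ → Prop} [DecidablePred P]
    (h : MeasurableSet {x | P x}) : Measurable fun x => decide (P x) := by
  refine measurable_to_bool ?_
  convert h using 1
  ext x
  simp

theorem cover_col_le (A : ℕ → Bool → Orc) (Z : Orc) :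
    Red (col A Z) (join Z fun k => A k.unpair.1 k.unpair.2.bodd k.unpair.2.div2) := by
  have u1 : Primrec fun p : ℕ × Bool => p.1.unpair.1 :=
    Primrec.fst.comp (Primrec.unpair.comp Primrec.fst)
  have u2 : Primrec fun p : ℕ × Bool => p.1.unpair.2 :=
    Primrec.snd.comp (Primrec.unpair.comp Primrec.fst)
  rw [red_iff_sig]
  refine ((((red_join_left _ _).query u1 (Primrec.const true)).and
    ((red_join_right _ _).query (Primrec₂.natPair.comp u1 (Primrec.nat_double_succ.comp u2))
      Primrec.snd)).or (((red_join_left _ _).query u1 (Primrec.const false)).and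
    ((red_join_right _ _).query (Primrec₂.natPair.comp u1 (Primrec.nat_double.comp u2))
      Primrec.snd))).congr fun p => ?_
  have e1 : ∀ m : ℕ, (2 * m + 1).div2 = m := fun m => by rw [Nat.div2_val]; omega
  have e2 : ∀ m : ℕ, (2 * m).div2 = m := fun m => by rw [Nat.div2_val]; omega
  unfold col
  cases h : Z p.1.unpair.1 <;> simp [e1, e2]

theorem cover_le_col (A : ℕ → Bool → Orc) (Z : Orc) (n : ℕ) : Red (A n (Z n)) (col A Z) := by
  have := red_comp (col A Z) (Primrec₂.natPair.comp (Primrec.const n) Primrec.id)
  simpa [col] using this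

theorem cover {p q : Orc → Orc} (h : Aut p q) :
    ∃ F : ℕ → ℝ → Orc, (∀ e, Measurable (F e)) ∧ ∀ x : ℝ, ∃ e, p (cut x) = F e x := by
  classical
  obtain ⟨A, hA⟩ := exists_family
  obtain ⟨E, hE, hE'⟩ := exists_enum_op
  set C : Orc := fun k => A k.unpair.1 k.unpair.2.bodd k.unpair.2.div2 with hC
  let W : ℕ → ℝ → Orc := fun e x m => decide (E e (join (cut x) (q C)) (m, true))
  have hW : ∀ e, Measurable (W e) := fun e => measurable_pi_lambda _ fun m =>
    cover_measurable_decide (measurableSet_usig (hE e)
      (measurable_join measurable_cut measurable_const) (m, true))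
  refine ⟨fun e x n => decide (Red (q (A n true)) (W e x)), fun e => measurable_pi_lambda _ fun n =>
    cover_measurable_decide (measurableSet_red measurable_const (hW e)), fun x => ?_⟩
  have h1 : Red (q (col A (p (cut x)))) (join (cut x) (q C)) :=
    (h.symm.red_join (cover_col_le A _)).trans
      (((h.qp_le _).trans (red_join_left _ _)).join (red_join_right _ _))
  obtain ⟨Q, hQ, h2⟩ := h1
  obtain ⟨e, rfl⟩ := hE' Q hQ
  have h3 : W e x = q (col A (p (cut x))) := funext fun m => by
    simp only [W, ← h2 m true, Bool.decide_eq_true]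
  refine ⟨e, funext fun n => ?_⟩
  beta_reduce
  rw [h3, h.q_iff]
  have h4 := cover_le_col A (p (cut x)) n
  have h5 := hA (p (cut x)) n
  cases h6 : p (cut x) n
  · rw [h6] at h5
    exact (decide_eq_false h5).symm
  · rw [h6] at h4
    exact (decide_eq_true h4).symm

end Crest.Agent.R292
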