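import Crest.Agent.R292.Red

/-!
# Row 292: arithmetic of cuts   (task R292-CutA)

Write `ρ n = n.unpair.1 / (n.unpair.2 + 1)`, so `cut x n = true ↔ ρ n < x`; the values `ρ n` are
dense in `[0, ∞)`.  Comparisons between the `ρ`'s are primitive recursive after clearing
denominators (`Primrec.nat_lt`, `nat_add`, `nat_mul`, `Primrec.unpair`).
For rational (or non-positive) `x` the cut is primitive recursive.  For irrational `z = x + y`:
`ρ n < z ↔ ∃ i j, cut x i = true ∧ cut y j = true ∧ ρ n < ρ i + ρ j`, and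
`cut z n = false ↔ z < ρ n ↔ ∃ i j, cut x i = false ∧ cut y j = false ∧ ρ i + ρ j < ρ n`.
Use `red_of_two`, `Sig.exists`, `Red.query` with `red_join_left/right`.  Similarly for `x = z - y`
(`ρ n + ρ j < ρ i` with `i ∈ cut z`, `j ∉ cut y`, and conversely) and for `x * y`.
-/

set_option autoImplicit false

namespace Crest.Agent.R292

open Filter Topology

/-- the rational with code `n` -/
noncomputable def rho (n : ℕ) : ℝ := (n.unpair.1 : ℝ) / ((n.unpair.2 : ℝ) + 1)

theorem rho_nonneg (n : ℕ) : 0 ≤ rho n := by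
  unfold rho
  positivity

theorem rho_pair (a c : ℕ) : rho (Nat.pair a c) = (a : ℝ) / ((c : ℝ) + 1) := by
  simp [rho]

theorem rho_pair' (a : ℕ) {c : ℕ} (hc : 0 < c) : rho (Nat.pair a (c - 1)) = (a : ℝ) / (c : ℝ) := by
  rw [rho_pair, Nat.cast_pred hc, sub_add_cancel]

theorem cut_true {x : ℝ} {n : ℕ} : cut x n = true ↔ rho n < x := by
  unfold cut rho
  rw [decide_eq_true_eq, div_lt_iff₀ (by positivity)]

theorem cut_false {x : ℝ} {n : ℕ} : cut x n = false ↔ x ≤ rho n := by
  rw [← Bool.not_eq_true, cut_true, not_lt]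

theorem cut_eq_decide (x : ℝ) (n : ℕ) : cut x n = decide (rho n < x) := by
  by_cases h : rho n < x
  · rw [decide_eq_true h, cut_true.2 h]
  · rw [decide_eq_false h, cut_false.2 (not_lt.1 h)]

theorem rho_not_irrational (n : ℕ) : ¬ Irrational (rho n) := fun h =>
  h ⟨(n.unpair.1 : ℚ) / ((n.unpair.2 : ℚ) + 1), by simp [rho]⟩

theorem exists_rho_eq {x : ℝ} (hx : ¬ Irrational x) (h0 : 0 ≤ x) : ∃ n, rho n = x := by
  obtain ⟨q, rfl⟩ := not_not.1 hx
  have hq : 0 ≤ q := by exact_mod_cast h0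
  refine ⟨Nat.pair q.num.toNat (q.den - 1), ?_⟩
  rw [rho_pair' _ q.den_pos]
  have h1 : ((q.num.toNat : ℤ) : ℝ) = (q.num : ℝ) := by
    rw [Int.toNat_of_nonneg (Rat.num_nonneg.2 hq)]
  rw [Rat.cast_def, ← h1, Int.cast_natCast]

theorem rho_dense {a b : ℝ} (ha : 0 ≤ a) (hab : a < b) : ∃ n, a < rho n ∧ rho n < b := by
  obtain ⟨q, h1, h2⟩ := exists_rat_btwn hab
  obtain ⟨n, hn⟩ := exists_rho_eq (x := q) (fun h => h ⟨q, rfl⟩) (by linarith)
  exact ⟨n, hn ▸ h1, hn ▸ h2⟩

theorem rho_below {x : ℝ} (hx : 0 < x) {p : ℝ → Prop} (h : ∀ᶠ s in 𝓝 x, p s) :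
    ∃ i, rho i < x ∧ p (rho i) := by
  obtain ⟨l, u, ⟨h1, h2⟩, h3⟩ := mem_nhds_iff_exists_Ioo_subset.1 h
  obtain ⟨n, h4, h5⟩ := rho_dense (le_max_left 0 l) (max_lt hx h1)
  exact ⟨n, h5, h3 ⟨lt_of_le_of_lt (le_max_right _ _) h4, h5.trans h2⟩⟩

theorem rho_above {x : ℝ} (hx : 0 ≤ x) {p : ℝ → Prop} (h : ∀ᶠ s in 𝓝 x, p s) :
    ∃ i, x < rho i ∧ p (rho i) := by
  obtain ⟨l, u, ⟨h1, h2⟩, h3⟩ := mem_nhds_iff_exists_Ioo_subset.1 h
  obtain ⟨n, h4, h5⟩ := rho_dense hx h2
  exact ⟨n, h4, h3 ⟨h1.trans h4, h5⟩⟩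

theorem primrec_rho_lt : PrimrecRel fun i j : ℕ => rho i < rho j := by
  have u1 : Primrec fun n : ℕ => n.unpair.1 := Primrec.fst.comp Primrec.unpair
  have u2 : Primrec fun n : ℕ => n.unpair.2 + 1 :=
    Primrec.succ.comp (Primrec.snd.comp Primrec.unpair)
  refine PrimrecPred.of_eq (Primrec.nat_lt.comp
    (Primrec.nat_mul.comp (u1.comp Primrec.fst) (u2.comp Primrec.snd))
    (Primrec.nat_mul.comp (u1.comp Primrec.snd) (u2.comp Primrec.fst))) fun p => ?_
  beta_reduce
  unfold rho
  rw [div_lt_div_iff₀ (by positivity) (by positivity)]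
  exact_mod_cast Iff.rfl

theorem exists_radd : ∃ f : ℕ → ℕ → ℕ, Primrec₂ f ∧ ∀ i j, rho (f i j) = rho i + rho j := by
  have u1 : Primrec fun n : ℕ => n.unpair.1 := Primrec.fst.comp Primrec.unpair
  have u2 : Primrec fun n : ℕ => n.unpair.2 + 1 :=
    Primrec.succ.comp (Primrec.snd.comp Primrec.unpair)
  refine ⟨fun i j => Nat.pair (i.unpair.1 * (j.unpair.2 + 1) + j.unpair.1 * (i.unpair.2 + 1))
    ((i.unpair.2 + 1) * (j.unpair.2 + 1) - 1), ?_, fun i j => ?_⟩
  · exact Primrec₂.natPair.comp (Primrec.nat_add.comp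
      (Primrec.nat_mul.comp (u1.comp Primrec.fst) (u2.comp Primrec.snd))
      (Primrec.nat_mul.comp (u1.comp Primrec.snd) (u2.comp Primrec.fst)))
      (Primrec.nat_sub.comp (Primrec.nat_mul.comp (u2.comp Primrec.fst) (u2.comp Primrec.snd))
        (Primrec.const 1))
  · beta_reduce
    rw [rho_pair' _ (by positivity)]
    unfold rho
    push_cast
    field_simp

theorem exists_rmul : ∃ f : ℕ → ℕ → ℕ, Primrec₂ f ∧ ∀ i j, rho (f i j) = rho i * rho j := by
  have u1 : Primrec fun n : ℕ => n.unpair.1 := Primrec.fst.comp Primrec.unpair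
  have u2 : Primrec fun n : ℕ => n.unpair.2 + 1 :=
    Primrec.succ.comp (Primrec.snd.comp Primrec.unpair)
  refine ⟨fun i j => Nat.pair (i.unpair.1 * j.unpair.1)
    ((i.unpair.2 + 1) * (j.unpair.2 + 1) - 1), ?_, fun i j => ?_⟩
  · exact Primrec₂.natPair.comp (Primrec.nat_mul.comp (u1.comp Primrec.fst) (u1.comp Primrec.snd))
      (Primrec.nat_sub.comp (Primrec.nat_mul.comp (u2.comp Primrec.fst) (u2.comp Primrec.snd))
        (Primrec.const 1))
  · beta_reduce
    rw [rho_pair' _ (by positivity)]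
    unfold rho
    push_cast
    field_simp

theorem cutA_sig (A B : Orc) (b₁ b₂ : Bool) {p : ℕ → ℕ → ℕ → Prop}
    (hp : PrimrecPred fun x : (ℕ × ℕ) × ℕ => p x.1.1 x.1.2 x.2) :
    Sig (join A B) fun n => ∃ i j, A i = b₁ ∧ B j = b₂ ∧ p n i j :=
  (((red_join_left A B).query (α := (ℕ × ℕ) × ℕ) (Primrec.snd.comp Primrec.fst)
    (Primrec.const b₁)).and (((red_join_right A B).query Primrec.snd (Primrec.const b₂)).and
      (Sig.of_primrecPred hp))).exists.exists

theorem primrec_cut_of_not_irrational {x : ℝ} (hx : ¬ Irrational x) : Primrec (cut x) := by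
  rcases le_or_gt x 0 with h | h
  · exact (Primrec.const false).of_eq fun n => (cut_false.2 (h.trans (rho_nonneg n))).symm
  · obtain ⟨i, rfl⟩ := exists_rho_eq hx h.le
    exact (PrimrecPred.decide (primrec_rho_lt.comp Primrec.id (Primrec.const i))).of_eq
      fun n => (cut_eq_decide _ n).symm

theorem cut_red_of_sig {z : ℝ} {W : Orc} (h1 : Sig W fun n => rho n < z)
    (h2 : Sig W fun n => z < rho n) : Red (cut z) W := by
  by_cases hz : Irrational z
  · refine red_of_two (h1.congr fun n => cut_true.symm) (h2.congr fun n => ?_)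
    rw [cut_false]
    exact ⟨le_of_lt, fun h => lt_of_le_of_ne h fun e => rho_not_irrational n (e ▸ hz)⟩
  · exact red_of_primrec (primrec_cut_of_not_irrational hz) W

theorem cut_add {x y : ℝ} (hx : 0 < x) (hy : 0 < y) :
    Red (cut (x + y)) (join (cut x) (cut y)) := by
  obtain ⟨f, hf, e⟩ := exists_radd
  have pf : Primrec fun x : (ℕ × ℕ) × ℕ => f x.1.2 x.2 :=
    hf.comp (Primrec.snd.comp Primrec.fst) Primrec.snd
  have pn : Primrec fun x : (ℕ × ℕ) × ℕ => x.1.1 := Primrec.fst.comp Primrec.fst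
  refine cut_red_of_sig ?_ ?_
  · refine (cutA_sig (cut x) (cut y) true true (p := fun n i j => rho n < rho (f i j))
      (primrec_rho_lt.comp pn pf)).congr fun n => ?_
    simp only [cut_true, e]
    constructor
    · rintro ⟨i, j, h1, h2, h3⟩
      linarith
    · intro h
      obtain ⟨i, h1, h2⟩ := rho_below hx (p := fun s => rho n < s + y)
        (continuousAt_const.eventually_lt (by fun_prop) h)
      obtain ⟨j, h3, h4⟩ := rho_below hy (p := fun s => rho n < rho i + s)
        (continuousAt_const.eventually_lt (by fun_prop) h2)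
      exact ⟨i, j, h1, h3, h4⟩
  · refine (cutA_sig (cut x) (cut y) false false (p := fun n i j => rho (f i j) < rho n)
      (primrec_rho_lt.comp pf pn)).congr fun n => ?_
    simp only [cut_false, e]
    constructor
    · rintro ⟨i, j, h1, h2, h3⟩
      linarith
    · intro h
      obtain ⟨i, h1, h2⟩ := rho_above hx.le (p := fun s => s + y < rho n)
        (ContinuousAt.eventually_lt (by fun_prop) continuousAt_const h)
      obtain ⟨j, h3, h4⟩ := rho_above hy.le (p := fun s => rho i + s < rho n)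
        (ContinuousAt.eventually_lt (by fun_prop) continuousAt_const h2)
      exact ⟨i, j, h1.le, h3.le, h4⟩

theorem cut_sub {x y : ℝ} (hx : 0 < x) (hy : 0 < y) :
    Red (cut x) (join (cut (x + y)) (cut y)) := by
  obtain ⟨f, hf, e⟩ := exists_radd
  have pf : Primrec fun x : (ℕ × ℕ) × ℕ => f x.1.1 x.2 :=
    hf.comp (Primrec.fst.comp Primrec.fst) Primrec.snd
  have pn : Primrec fun x : (ℕ × ℕ) × ℕ => x.1.2 := Primrec.snd.comp Primrec.fst
  have hz : 0 < x + y := by linarith
  refine cut_red_of_sig ?_ ?_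
  · refine (cutA_sig (cut (x + y)) (cut y) true false (p := fun n i j => rho (f n j) < rho i)
      (primrec_rho_lt.comp pf pn)).congr fun n => ?_
    simp only [cut_true, cut_false, e]
    constructor
    · rintro ⟨i, j, h1, h2, h3⟩
      linarith
    · intro h
      obtain ⟨i, h1, h2⟩ := rho_below hz (p := fun s => rho n + y < s)
        (continuousAt_const.eventually_lt (by fun_prop) (by linarith))
      obtain ⟨j, h3, h4⟩ := rho_above hy.le (p := fun s => rho n + s < rho i)
        (ContinuousAt.eventually_lt (by fun_prop) continuousAt_const h2)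
      exact ⟨i, j, h1, h3.le, h4⟩
  · refine (cutA_sig (cut (x + y)) (cut y) false true (p := fun n i j => rho i < rho (f n j))
      (primrec_rho_lt.comp pn pf)).congr fun n => ?_
    simp only [cut_true, cut_false, e]
    constructor
    · rintro ⟨i, j, h1, h2, h3⟩
      linarith
    · intro h
      obtain ⟨i, h1, h2⟩ := rho_above hz.le (p := fun s => s < rho n + y)
        (ContinuousAt.eventually_lt (by fun_prop) continuousAt_const (by linarith))
      obtain ⟨j, h3, h4⟩ := rho_below hy (p := fun s => rho i < rho n + s)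
        (continuousAt_const.eventually_lt (by fun_prop) h2)
      exact ⟨i, j, h1.le, h3, h4⟩

theorem cut_mul {x y : ℝ} (hx : 0 < x) (hy : 0 < y) :
    Red (cut (x * y)) (join (cut x) (cut y)) := by
  obtain ⟨f, hf, e⟩ := exists_rmul
  have pf : Primrec fun x : (ℕ × ℕ) × ℕ => f x.1.2 x.2 :=
    hf.comp (Primrec.snd.comp Primrec.fst) Primrec.snd
  have pn : Primrec fun x : (ℕ × ℕ) × ℕ => x.1.1 := Primrec.fst.comp Primrec.fst
  refine cut_red_of_sig ?_ ?_
  · refine (cutA_sig (cut x) (cut y) true true (p := fun n i j => rho n < rho (f i j))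
      (primrec_rho_lt.comp pn pf)).congr fun n => ?_
    simp only [cut_true, e]
    constructor
    · rintro ⟨i, j, h1, h2, h3⟩
      exact h3.trans (mul_lt_mul'' h1 h2 (rho_nonneg i) (rho_nonneg j))
    · intro h
      obtain ⟨i, h1, h2⟩ := rho_below hx (p := fun s => rho n < s * y)
        (continuousAt_const.eventually_lt (by fun_prop) h)
      obtain ⟨j, h3, h4⟩ := rho_below hy (p := fun s => rho n < rho i * s)
        (continuousAt_const.eventually_lt (by fun_prop) h2)
      exact ⟨i, j, h1, h3, h4⟩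
  · refine (cutA_sig (cut x) (cut y) false false (p := fun n i j => rho (f i j) < rho n)
      (primrec_rho_lt.comp pf pn)).congr fun n => ?_
    simp only [cut_false, e]
    constructor
    · rintro ⟨i, j, h1, h2, h3⟩
      exact lt_of_le_of_lt (mul_le_mul h1 h2 hy.le (rho_nonneg i)) h3
    · intro h
      obtain ⟨i, h1, h2⟩ := rho_above hx.le (p := fun s => s * y < rho n)
        (ContinuousAt.eventually_lt (by fun_prop) continuousAt_const h)
      obtain ⟨j, h3, h4⟩ := rho_above hy.le (p := fun s => rho i * s < rho n)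
        (ContinuousAt.eventually_lt (by fun_prop) continuousAt_const h2)
      exact ⟨i, j, h1.le, h3.le, h4⟩

end Crest.Agent.R292
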