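import Crest.Agent.R292.CutA

/-!
# Row 292: every degree contains a cut; cuts are injective   (task R292-CutB)

`exists_cut_equiv`: put `d n = if X n then 2 else 1`, `x = ∑' n, d n / 4^(n+1)`, and
`S N = ∑ n < N, d n * 4^(N-1-n)` (`S (N+1) = 4 * S N + d N`).  Then
`S N / 4^N < x < (S N + 1) / 4^N` (tail in `[4^{-N}/3, 2·4^{-N}/3]`).
(Alternatively define `x` as the supremum of `S N / 4^N`, with the nested intervals.)
* `X ≤ cut x`: `X n = b ↔ ∃ a, a / 4^(n+1) < x ∧ ¬ (a+1) / 4^(n+1) < x ∧ a % 4 = (if b then 2 else 1)`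
  (`a` must be `S (n+1)`; the rational `a / 4^(n+1)` has code `Nat.pair a (4^(n+1) - 1)`).
* `cut x ≤ X`: if `x` is rational use `primrec_cut_of_not_irrational`; otherwise
  `a/(c+1) < x ↔ ∃ σ, (∀ i < σ.length, X i = σ.getD i false) ∧ a * 4^|σ| < S(σ) * (c+1)`, with
  `S(σ) = σ.foldl (fun s b => 4 * s + if b then 2 else 1) 0`, and dually with `S(σ) + 1`.
-/

set_option autoImplicit false

namespace Crest.Agent.R292

/-- base-4 value of a word with digits `1, 2` -/
def cutB_S (σ : List Bool) : ℕ := σ.foldl (fun s b => 4 * s + if b = true then 2 else 1) 0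

theorem cutB_S_primrec : Primrec cutB_S :=
  Primrec.list_foldl (α := List Bool) (f := id) (g := fun _ => 0)
    (h := fun _ (x : ℕ × Bool) => 4 * x.1 + if x.2 = true then 2 else 1) Primrec.id
    (Primrec.const 0) (Primrec.nat_add.comp (Primrec.nat_mul.comp (Primrec.const 4)
      (Primrec.fst.comp Primrec.snd)) (Primrec.ite (Primrec.eq.comp (Primrec.snd.comp Primrec.snd)
        (Primrec.const true)) (Primrec.const 2) (Primrec.const 1))).to₂

theorem cutB_S_succ (X : Orc) (N : ℕ) :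
    cutB_S (pre X (N + 1)) = 4 * cutB_S (pre X N) + if X N = true then 2 else 1 := by
  simp [cutB_S, pre, List.range_succ]

theorem cutB_pow : Primrec fun n : ℕ => 4 ^ n - 1 :=
  Primrec.nat_sub.comp ((Primrec₂.unpaired'.1 Nat.Primrec.pow).comp (Primrec.const 4) Primrec.id)
    (Primrec.const 1)

theorem cutB_rho (a N : ℕ) : rho (Nat.pair a (4 ^ N - 1)) = (a : ℝ) / 4 ^ N := by
  rw [rho_pair' _ (by positivity)]
  push_cast
  rfl

theorem cut_injOn : Set.InjOn cut (Set.Ioi 0) := by
  intro x hx y hy h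
  have key : ∀ {x y : ℝ}, 0 < x → x < y → cut x ≠ cut y := by
    intro x y hx hxy h
    obtain ⟨n, h1, h2⟩ := rho_dense hx.le hxy
    have h3 := cut_true.2 h2
    rw [← h, cut_true] at h3
    linarith
  rcases lt_trichotomy x y with h1 | h1 | h1
  · exact absurd h (key hx h1)
  · exact h1
  · exact absurd h.symm (key hy h1)

theorem countable_cut_red (X : Orc) : {x : ℝ | 0 < x ∧ Red (cut x) X}.Countable := by
  refine Set.countable_of_injective_of_countable_image (f := cut)
    (cut_injOn.mono fun x hx => hx.1) ((countable_red X).mono ?_)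
  rintro _ ⟨x, hx, rfl⟩
  exact hx.2

theorem exists_cut_equiv (X : Orc) : ∃ x : ℝ, 0 < x ∧ Red X (cut x) ∧ Red (cut x) X := by
  set S : ℕ → ℕ := fun N => cutB_S (pre X N) with hS
  have S1 : ∀ N, 4 * S N + 1 ≤ S (N + 1) ∧ S (N + 1) ≤ 4 * S N + 2 := fun N => by
    simp only [hS, cutB_S_succ]
    split_ifs <;> omega
  set lo : ℕ → ℝ := fun N => (S N : ℝ) / 4 ^ N with hlo
  set hi : ℕ → ℝ := fun N => ((S N + 1 : ℕ) : ℝ) / 4 ^ N with hhi
  have lo1 : StrictMono lo := strictMono_nat_of_lt_succ fun N => by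
    have : (4 * S N + 1 : ℝ) ≤ S (N + 1) := by exact_mod_cast (S1 N).1
    simp only [hlo]
    rw [div_lt_div_iff₀ (by positivity) (by positivity), pow_succ]
    have h4 : (0 : ℝ) < 4 ^ N := by positivity
    nlinarith
  have hi1 : StrictAnti hi := strictAnti_nat_of_succ_lt fun N => by
    have : (S (N + 1) : ℝ) ≤ 4 * S N + 2 := by exact_mod_cast (S1 N).2
    simp only [hhi]
    rw [div_lt_div_iff₀ (by positivity) (by positivity), pow_succ]
    have h4 : (0 : ℝ) < 4 ^ N := by positivity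
    push_cast
    nlinarith
  have lh : ∀ N, hi N = lo N + (1 / 4) ^ N := fun N => by
    simp only [hhi, hlo]
    push_cast
    rw [one_div_pow, add_div]
  have lh2 : ∀ N M, lo N ≤ hi M := fun N M => by
    have h1 := lo1.monotone (le_max_left N M)
    have h2 := hi1.antitone (le_max_right N M)
    have h3 := lh (max N M)
    have h4 : (0 : ℝ) < (1 / 4) ^ (max N M) := by positivity
    linarith
  have bdd : BddAbove (Set.range lo) := ⟨hi 0, by rintro _ ⟨N, rfl⟩; exact lh2 N 0⟩
  have x1 : ∀ N, lo N < ⨆ N, lo N := fun N =>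
    lt_of_lt_of_le (lo1 (Nat.lt_succ_self N)) (le_ciSup bdd _)
  have x2 : ∀ N, ⨆ N, lo N < hi N := fun N =>
    lt_of_le_of_lt (ciSup_le fun M => lh2 M (N + 1)) (hi1 (Nat.lt_succ_self N))
  refine ⟨⨆ N, lo N, lt_of_le_of_lt (by simp only [hlo]; positivity) (x1 0), ?_, ?_⟩
  · rw [red_iff_sig]
    have pw : Primrec fun x : (ℕ × Bool) × ℕ => 4 ^ (x.1.1 + 1) - 1 :=
      cutB_pow.comp (Primrec.succ.comp (Primrec.fst.comp Primrec.fst))
    have a1 : Sig (cut (⨆ N, lo N)) fun x : (ℕ × Bool) × ℕ =>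
        cut (⨆ N, lo N) (Nat.pair x.2 (4 ^ (x.1.1 + 1) - 1)) = true :=
      Sig.query (Primrec₂.natPair.comp Primrec.snd pw) (Primrec.const true)
    have a2 : Sig (cut (⨆ N, lo N)) fun x : (ℕ × Bool) × ℕ =>
        cut (⨆ N, lo N) (Nat.pair (x.2 + 1) (4 ^ (x.1.1 + 1) - 1)) = false :=
      Sig.query (Primrec₂.natPair.comp (Primrec.succ.comp Primrec.snd) pw) (Primrec.const false)
    have a3 : Sig (cut (⨆ N, lo N)) fun x : (ℕ × Bool) × ℕ =>
        x.2 % 4 = if x.1.2 = true then 2 else 1 :=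
      Sig.of_primrecPred (Primrec.eq.comp (Primrec.nat_mod.comp Primrec.snd (Primrec.const 4))
        (Primrec.ite (Primrec.eq.comp (Primrec.snd.comp Primrec.fst) (Primrec.const true))
          (Primrec.const 2) (Primrec.const 1)))
    refine (a1.and (a2.and a3)).exists.congr ?_
    rintro ⟨n, b⟩
    simp only [cut_true, cut_false, cutB_rho]
    have e : S (n + 1) % 4 = if X n = true then 2 else 1 := by
      simp only [hS, cutB_S_succ]
      split_ifs <;> omega
    constructor
    · rintro ⟨a, h1, h2, h3⟩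
      have h4 := h1.trans (x2 (n + 1))
      have h5 := (x1 (n + 1)).trans_le h2
      simp only [hhi, hlo] at h4 h5
      rw [div_lt_div_iff_of_pos_right (by positivity), Nat.cast_lt] at h4 h5
      obtain rfl : a = S (n + 1) := by omega
      rw [e] at h3
      revert h3
      cases X n <;> cases b <;> simp
    · rintro rfl
      exact ⟨S (n + 1), x1 _, (x2 _).le, e⟩
  · have pw : Primrec fun x : ℕ × List Bool => 4 ^ x.2.length - 1 :=
      cutB_pow.comp (Primrec.list_length.comp Primrec.snd)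
    refine cut_red_of_sig ⟨_, ⟨fun n σ => rho n < rho (Nat.pair (cutB_S σ) (4 ^ σ.length - 1)),
      primrec_rho_lt.comp Primrec.fst (Primrec₂.natPair.comp (cutB_S_primrec.comp Primrec.snd) pw),
      fun _ _ => Iff.rfl⟩, fun n => ?_⟩
      ⟨_, ⟨fun n σ => rho (Nat.pair (cutB_S σ + 1) (4 ^ σ.length - 1)) < rho n,
      primrec_rho_lt.comp (Primrec₂.natPair.comp
        (Primrec.succ.comp (cutB_S_primrec.comp Primrec.snd)) pw) Primrec.fst,
      fun _ _ => Iff.rfl⟩, fun n => ?_⟩
    · simp only [cutB_rho, pre_length]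
      exact ⟨fun h => exists_lt_of_lt_ciSup h, fun ⟨M, hM⟩ => hM.trans (x1 M)⟩
    · simp only [cutB_rho, pre_length]
      refine ⟨fun h => ?_, fun ⟨M, hM⟩ => (x2 M).trans hM⟩
      obtain ⟨M, hM⟩ := exists_pow_lt_of_lt_one (sub_pos.2 h) (show (1 / 4 : ℝ) < 1 by norm_num)
      refine ⟨M, ?_⟩
      have h1 := lh M
      have h2 := x1 M
      show hi M < rho n
      linarith

end Crest.Agent.R292
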