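import Mathlib

/-!
# Row 292 (rigidity of the Turing degrees): definitions

Oracles are functions `ℕ → Bool`.  `USig P` says that `P Y a` is `Σ⁰₁` in the oracle `Y`,
uniformly in `Y`.  `Red X Y` is Turing reducibility in this normal form (`Bridge*.lean` links it to
Mathlib's `TuringReducible`).
-/

set_option autoImplicit false

namespace Crest.Agent.R292

/-- Oracles / sets of naturals. -/
abbrev Orc : Type := ℕ → Bool

/-- The first `M` bits of `Y`. -/
def pre (Y : Orc) (M : ℕ) : List Bool := (List.range M).map Y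

/-- `P Y a` is semidecidable from the oracle `Y`, uniformly in `Y`. -/
def USig {α : Type} [Primcodable α] (P : Orc → α → Prop) : Prop :=
  ∃ R : α → List Bool → Prop, PrimrecRel R ∧ ∀ Y a, P Y a ↔ ∃ M, R a (pre Y M)

/-- `P` is semidecidable from the fixed oracle `Y`. -/
def Sig {α : Type} [Primcodable α] (Y : Orc) (P : α → Prop) : Prop :=
  ∃ Q : Orc → α → Prop, USig Q ∧ ∀ a, P a ↔ Q Y a

/-- Operators (Turing functionals are the `USig` ones). -/
abbrev Op : Type := Orc → ℕ × Bool → Prop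

/-- The operator `Q` with oracle `Y` computes `X`. -/
def Maps (Q : Op) (Y X : Orc) : Prop := ∀ n b, X n = b ↔ Q Y (n, b)

/-- `X` is Turing reducible to `Y`. -/
def Red (X Y : Orc) : Prop := ∃ Q : Op, USig Q ∧ Maps Q Y X

/-- Turing join. -/
def join (X Y : Orc) : Orc := fun n => if n % 2 = 0 then X (n / 2) else Y (n / 2)

/-- `p` and `q` represent mutually inverse automorphisms of the Turing degrees. -/
structure Aut (p q : Orc → Orc) : Prop where
  p_iff : ∀ X Y, Red (p X) (p Y) ↔ Red X Y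
  q_iff : ∀ X Y, Red (q X) (q Y) ↔ Red X Y
  pq_le : ∀ X, Red (p (q X)) X
  le_pq : ∀ X, Red X (p (q X))
  qp_le : ∀ X, Red (q (p X)) X
  le_qp : ∀ X, Red X (q (p X))

/-- The left cut of a real in the non-negative rationals `a / (c + 1)`, `n = ⟨a, c⟩`. -/
noncomputable def cut (x : ℝ) : Orc :=
  fun n => decide ((n.unpair.1 : ℝ) < x * ((n.unpair.2 : ℝ) + 1))

/-- The set whose `n`-th column is `A n (Z n)`. -/
def col (A : ℕ → Bool → Orc) (Z : Orc) : Orc :=
  fun k => A k.unpair.1 (Z k.unpair.1) k.unpair.2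

/-- The value of a word: `true` counts `+1`, `false` counts `-r`. -/
def sumw (r : ℝ) (w : List Bool) : ℝ := (w.count true : ℝ) - (w.count false : ℝ) * r

@[simp] theorem pre_length (Y : Orc) (M : ℕ) : (pre Y M).length = M := by simp [pre]

theorem pre_getD (Y : Orc) {M i : ℕ} (h : i < M) (d : Bool) : (pre Y M).getD i d = Y i := by
  simp [pre, List.getD_eq_getElem?_getD, h]

theorem pre_take (Y : Orc) {M k : ℕ} (h : k ≤ M) : (pre Y M).take k = pre Y k := by
  simp [pre, ← List.map_take, List.take_range, min_eq_left h]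

theorem pre_congr {Y Z : Orc} {M : ℕ} (h : ∀ i < M, Y i = Z i) : pre Y M = pre Z M := by
  unfold pre
  exact List.map_congr_left fun i hi => h i (List.mem_range.1 hi)

theorem eq_pre_iff (Y : Orc) (σ : List Bool) :
    σ = pre Y σ.length ↔ ∀ i < σ.length, Y i = σ.getD i false := by
  constructor
  · intro h i hi
    rw [h, pre_getD Y hi]
  · intro h
    apply List.ext_getElem (by simp)
    intro i h1 h2
    have := h i h1
    simp [pre, List.getD_eq_getElem?_getD, h1] at this ⊢
    exact this.symm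

@[simp] theorem join_even (X Y : Orc) (n : ℕ) : join X Y (2 * n) = X n := by
  simp [join]

@[simp] theorem join_odd (X Y : Orc) (n : ℕ) : join X Y (2 * n + 1) = Y n := by
  have h1 : (2 * n + 1) % 2 = 1 := by omega
  have h2 : (2 * n + 1) / 2 = n := by omega
  simp [join, h1, h2]

theorem red_iff_sig (X Y : Orc) : Red X Y ↔ Sig Y (fun p : ℕ × Bool => X p.1 = p.2) :=
  ⟨fun ⟨Q, hQ, h⟩ => ⟨Q, hQ, fun p => h p.1 p.2⟩, fun ⟨Q, hQ, h⟩ => ⟨Q, hQ, fun n b => h (n, b)⟩⟩

theorem Maps.unique {Q : Op} {Y X X' : Orc} (h : Maps Q Y X) (h' : Maps Q Y X') : X = X' := by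
  funext n
  exact ((h' n (X n)).2 ((h n (X n)).1 rfl)).symm

theorem Aut.symm {p q : Orc → Orc} (h : Aut p q) : Aut q p :=
  ⟨h.q_iff, h.p_iff, h.qp_le, h.le_qp, h.pq_le, h.le_pq⟩

end Crest.Agent.R292
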