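import Crest.Agent.R292.CutA

/-!
# Row 292: a generic real does not help to compute a given set   (task R292-Gen)

Plan: by `exists_enum_op` it suffices to show that for a `USig` operator `Q` the set
`E = {y | Maps Q (join B (cut y)) X}` is nowhere dense (`isMeagre_iUnion`, `IsNowhereDense.isMeagre`).
Rational and non-positive `y` are not in `E` (`primrec_cut_of_not_irrational`; for `y ≤ 0` the cut is
constantly `false`), since then `join B (cut y) ≤ B`.  If `E` were dense in an interval, it is dense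
in an interval `(u, v)` with rational end points `0 < u < v`.  Let `Q Y x ↔ ∃ M, R x (pre Y M)` and
`ρ n = n.unpair.1 / (n.unpair.2 + 1)`.  Then
`X n = b ↔ ∃ i j M, u < ρ i ∧ ρ i < ρ j ∧ ρ j < v ∧ (∀ m < M, (ρ m < ρ i ↔ ρ m < ρ j)) ∧
   ∃ σ, σ.length = M ∧ (∀ m < M, join B (cut (ρ i)) m = σ.getD m false) ∧ R (n, b) σ`:
(←) every `y ∈ (ρ i, ρ j)` has `pre (cut y) M = pre (cut (ρ i)) M` (monotonicity), take `y ∈ E`;
(→) take `y ∈ E ∩ (u, v)`, irrational, a use `M`, and rationals `ρ i < y < ρ j` closer to `y` than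
all `ρ m`, `m < M`.  The right side is `Sig B` (`cut (ρ i) m` is primitive recursive in `(i, m)`),
so `X ≤ B`.
-/

set_option autoImplicit false

namespace Crest.Agent.R292

open Filter Topology

set_option maxHeartbeats 400000

theorem gen_irr {X B : Orc} (h : ¬ Red X B) {y : ℝ} (hy : Red X (join B (cut y))) :
    Irrational y ∧ 0 < y := by
  have key : Primrec (cut y) → False := fun hp =>
    h (hy.trans ((Red.refl B).join (red_of_primrec hp B)))
  refine ⟨by_contra fun hn => key (primrec_cut_of_not_irrational hn), by_contra fun hn => key ?_⟩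
  exact (Primrec.const false).of_eq fun n =>
    (cut_false.2 ((not_lt.1 hn).trans (rho_nonneg n))).symm

theorem gen_sig_join (B : Orc) :
    Sig B fun x : ℕ × ℕ × Bool => join B (cut (rho x.1)) x.2.1 = x.2.2 := by
  classical
  have hd : Primrec fun x : ℕ × ℕ × Bool => x.2.1 / 2 :=
    Primrec.nat_div.comp (Primrec.fst.comp Primrec.snd) (Primrec.const 2)
  have hm : PrimrecPred fun x : ℕ × ℕ × Bool => x.2.1 % 2 = 0 :=
    Primrec.eq.comp (Primrec.nat_mod.comp (Primrec.fst.comp Primrec.snd) (Primrec.const 2))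
      (Primrec.const 0)
  have hc : Primrec fun x : ℕ × ℕ × Bool => x.2.2 := Primrec.snd.comp Primrec.snd
  refine (((Sig.of_primrecPred hm).and (Sig.query hd hc)).or (Sig.of_primrecPred (hm.not.and
    (Primrec.eq.comp (PrimrecPred.decide (primrec_rho_lt.comp hd Primrec.fst)) hc)))).congr
    fun x => ?_
  by_cases h : x.2.1 % 2 = 0
  · simp only [join, h, if_true, true_and, not_true, false_and, or_false]
  · simp only [join, h, if_false, true_and, not_false_iff, false_and, false_or, cut_eq_decide]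

theorem gen_join_congr (B : Orc) {s t : ℝ} {M : ℕ} (h : ∀ m < M, (rho m < s ↔ rho m < t)) :
    ∀ m < M, join B (cut s) m = join B (cut t) m := by
  intro m hm
  unfold join
  split_ifs
  · rfl
  · rw [cut_eq_decide, cut_eq_decide, decide_eq_decide]
    exact h _ (by omega)

theorem gen_sig (B : Orc) {R : ℕ × Bool → List Bool → Prop} (hR : PrimrecRel R) (u v : ℕ) :
    Sig B fun p : ℕ × Bool => ∃ (i j : ℕ) (σ : List Bool), (rho u < rho i ∧ rho i < rho j ∧
      rho j < rho v ∧ (∀ m < σ.length, ¬ rho m < rho j ∨ rho m < rho i) ∧ R p σ) ∧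
      ∀ m < σ.length, join B (cut (rho i)) m = σ.getD m false := by
  have pi : Primrec fun x : (((ℕ × Bool) × ℕ) × ℕ) × List Bool => x.1.1.2 :=
    Primrec.snd.comp (Primrec.fst.comp Primrec.fst)
  have pj : Primrec fun x : (((ℕ × Bool) × ℕ) × ℕ) × List Bool => x.1.2 :=
    Primrec.snd.comp Primrec.fst
  have pl : Primrec fun x : (((ℕ × Bool) × ℕ) × ℕ) × List Bool => x.2.length :=
    Primrec.list_length.comp Primrec.snd
  have a1 := primrec_rho_lt.comp (Primrec.const u) pi
  have a2 := primrec_rho_lt.comp pi pj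
  have a3 := primrec_rho_lt.comp pj (Primrec.const v)
  have a4 := sig_ball_lt (p := fun (x : (((ℕ × Bool) × ℕ) × ℕ) × List Bool) m =>
      ¬ rho m < rho x.1.2 ∨ rho m < rho x.1.1.2)
      ((primrec_rho_lt.comp Primrec.snd (pj.comp Primrec.fst)).not.or
        (primrec_rho_lt.comp Primrec.snd (pi.comp Primrec.fst))) pl
  have a5 : PrimrecPred fun x : (((ℕ × Bool) × ℕ) × ℕ) × List Bool => R x.1.1.1 x.2 :=
    hR.comp (Primrec.fst.comp (Primrec.fst.comp Primrec.fst)) Primrec.snd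
  have b : Primrec fun x : ((((ℕ × Bool) × ℕ) × ℕ) × List Bool) × ℕ =>
      (x.1.1.1.2, x.2, x.1.2.getD x.2 false) :=
    (pi.comp Primrec.fst).pair (Primrec.snd.pair
      ((Primrec.list_getD false).comp (Primrec.snd.comp Primrec.fst) Primrec.snd))
  have a6 := (gen_sig_join B).comp b
  have a7 := (Sig.of_primrecPred (Y := B) (a1.and (a2.and (a3.and (a4.and a5))))).and (a6.ball pl)
  have a8 : Sig B fun x : ((ℕ × Bool) × ℕ) × ℕ => ∃ σ : List Bool, (rho u < rho x.1.2 ∧
      rho x.1.2 < rho x.2 ∧ rho x.2 < rho v ∧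
      (∀ m < σ.length, ¬ rho m < rho x.2 ∨ rho m < rho x.1.2) ∧ R x.1.1 σ) ∧
      ∀ m < σ.length, join B (cut (rho x.1.2)) m = σ.getD m false := a7.exists
  exact a8.exists.exists

theorem gen_nowhere {X B : Orc} (h : ¬ Red X B) {Q : Op} (hQ : USig Q) :
    IsNowhereDense {y : ℝ | Maps Q (join B (cut y)) X} := by
  by_contra hn
  obtain ⟨z, hz⟩ := Set.nonempty_iff_ne_empty.2 hn
  obtain ⟨a, b, ⟨ha, hb⟩, hab⟩ := mem_nhds_iff_exists_Ioo_subset.1 (mem_interior_iff_mem_nhds.1 hz)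
  have dense : ∀ u v, a ≤ u → u < v → v ≤ b →
      ∃ y, u < y ∧ y < v ∧ Maps Q (join B (cut y)) X := by
    intro u v h1 h2 h3
    obtain ⟨y, hy1, hy2⟩ := mem_closure_iff.1
      (hab (show (u + v) / 2 ∈ Set.Ioo a b from ⟨by linarith, by linarith⟩))
      (Set.Ioo u v) isOpen_Ioo ⟨by linarith, by linarith⟩
    exact ⟨y, hy1.1, hy1.2, hy2⟩
  obtain ⟨y, y1, y2, hy⟩ := dense a b le_rfl (ha.trans hb) le_rfl
  obtain ⟨yi, y0⟩ := gen_irr h ⟨Q, hQ, hy⟩
  obtain ⟨u, u1, u2⟩ := rho_below y0 (p := fun s => a < s) (lt_mem_nhds y1)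
  obtain ⟨v, v1, v2⟩ := rho_above y0.le (p := fun s => s < b) (gt_mem_nhds y2)
  obtain ⟨R, hR, hQ⟩ := hQ
  apply h
  rw [red_iff_sig]
  refine (gen_sig B hR u v).congr ?_
  rintro ⟨n, c⟩
  constructor
  · rintro ⟨i, j, σ, ⟨h1, h2, h3, h4, h5⟩, h6⟩
    obtain ⟨w, w1, w2, hw⟩ := dense (rho i) (rho j) (by linarith) h2 (by linarith)
    refine (hw n c).2 ((hQ _ _).2 ⟨σ.length, ?_⟩)
    have e : σ = pre (join B (cut w)) σ.length := (eq_pre_iff _ σ).2 fun m hm => by
      rw [← h6 m hm]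
      refine gen_join_congr B (fun k hk => ⟨fun hk' => ?_, fun hk' => hk'.trans w1⟩) m hm
      exact (h4 k hk).resolve_left (not_not.2 (hk'.trans w2))
    exact e ▸ h5
  · intro hc
    obtain ⟨M, hM⟩ := (hQ _ _).1 ((hy n c).1 hc)
    have ev : ∀ᶠ s in 𝓝 y, ∀ m ∈ {m | m < M}, (rho m < s ↔ rho m < y) := by
      refine (eventually_all_finite (Set.finite_lt_nat M)).2 fun m _ => ?_
      rcases lt_trichotomy (rho m) y with h1 | h1 | h1
      · exact (lt_mem_nhds h1).mono fun s hs => iff_of_true hs h1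
      · exact absurd (h1 ▸ yi) (rho_not_irrational m)
      · exact (gt_mem_nhds h1).mono fun s hs => iff_of_false (not_lt.2 hs.le) (not_lt.2 h1.le)
    obtain ⟨i, i1, i2, i3⟩ := rho_below y0 ((lt_mem_nhds u1).and ev)
    obtain ⟨j, j1, j2, j3⟩ := rho_above y0.le ((gt_mem_nhds v1).and ev)
    refine ⟨i, j, pre (join B (cut y)) M, ⟨i2, i1.trans j1, j2, fun m hm => ?_, hM⟩,
      fun m hm => ?_⟩
    · rw [pre_length] at hm
      rw [i3 m hm, j3 m hm]
      exact (em _).symm
    · rw [pre_length] at hm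
      rw [pre_getD _ hm]
      exact gen_join_congr B i3 m hm

theorem gen {X B : Orc} (h : ¬ Red X B) : ∀ᶠ y in residual ℝ, ¬ Red X (join B (cut y)) := by
  obtain ⟨E, hE, hE'⟩ := exists_enum_op
  have h1 : ∀ᶠ y in residual ℝ, ∀ e, ¬ Maps (E e) (join B (cut y)) X :=
    eventually_countable_forall.2 fun e => (gen_nowhere h (hE e)).isMeagre
  refine h1.mono fun y hy => ?_
  rintro ⟨Q, hQ, hy'⟩
  obtain ⟨e, rfl⟩ := hE' Q hQ
  exact hy e hy'

end Crest.Agent.R292
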