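import Crest.Agent.R292.CutB
import Crest.Agent.R292.Gen
import Crest.Agent.R292.Cover
import Crest.Agent.R292.BaireA
import Crest.Agent.R292.BaireB
import Crest.Agent.R292.AlgB
import Crest.Agent.R292.AlgC

/-!
# Row 292: the main argument
-/

set_option autoImplicit false

namespace Crest.Agent.R292

open Filter Set

theorem Maps.red {Q : Op} (hQ : USig Q) {Y X : Orc} (h : Maps Q Y X) : Red X Y := ⟨Q, hQ, h⟩

/-- A bit of `Fa` that is not generically constant on the interval. -/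
theorem exists_bit {p q : Orc → Orc} (h : Aut p q) {Fa : ℝ → Orc} {u₀ u₁ : ℝ} {Z : ℝ → Prop}
    (hZ : ∀ s, Z s → 0 < s ∧ p (cut s) = Fa s)
    (hloc : ∃ᶠ x in residual ℝ, x ∈ Ioo u₀ u₁ ∧ Z x) :
    ∃ k, ∀ b : Bool, ∃ᶠ x in residual ℝ, x ∈ Ioo u₀ u₁ ∧ Fa x k = b := by
  by_contra hcon
  push Not at hcon
  choose b hb using hcon
  have h1 : ∀ᶠ x in residual ℝ, ∀ k, x ∈ Ioo u₀ u₁ → Fa x k = !b k := by
    rw [eventually_countable_forall]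
    intro k
    filter_upwards [hb k] with x hx hx'
    have := hx hx'
    revert this
    cases Fa x k <;> cases b k <;> simp
  have h2 := residual_notMem_countable (countable_cut_red (q fun k => !b k))
  obtain ⟨x, ⟨hx1, hx2⟩, hx3, hx4⟩ := (hloc.and_eventually (h1.and h2)).exists
  apply hx4
  refine ⟨(hZ x hx2).1, ?_⟩
  have : p (cut x) = fun k => !b k := by
    rw [(hZ x hx2).2]
    funext k
    exact hx3 k hx1
  rw [← this]
  exact h.le_qp _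

theorem core {p q : Orc → Orc} (h : Aut p q) {Fa Fb Fc : ℝ → Orc} (hFa : Measurable Fa)
    {Q₁ Q₂ Q₃ : Op} (hQ₁ : USig Q₁) (hQ₂ : USig Q₂) (hQ₃ : USig Q₃) {r : ℝ} (hr : 0 < r)
    (hirr : Irrational r) {u₀ u₁ : ℝ} (hu : u₀ < u₁) {Z : ℝ → Prop}
    (hZ : ∀ s, Z s → 0 < s ∧ p (cut s) = Fa s ∧ p (cut (r * s)) = Fb (r * s))
    (hloc : ∀ a b : ℝ, u₀ ≤ a → a < b → b ≤ u₁ → ∃ᶠ x in residual ℝ, x ∈ Ioo a b ∧ Z x)
    {M : Set (ℝ × ℝ)} (hM : M ∈ residual (ℝ × ℝ))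
    (hD : ∀ u t : ℝ, (u, t) ∈ M → u ∈ Ioo u₀ u₁ → t ∈ Ioo (r * u₀) (r * u₁) →
      Maps Q₁ (join (Fa u) (Fb t)) (Fc (u + t)) ∧ Maps Q₂ (join (Fc (u + t)) (Fb t)) (Fa u) ∧
        Maps Q₃ (join (Fc (u + t)) (Fa u)) (Fb t)) :
    Red (q (cut r)) (cut r) := by
  by_contra hn
  obtain ⟨k, hk⟩ := exists_bit h (Fa := Fa) (fun s hs => ⟨(hZ s hs).1, (hZ s hs).2.1⟩)
    (hloc u₀ u₁ le_rfl hu le_rfl)
  obtain ⟨b₀, t₀, L, α, β, hL, hL₀, hL₁, hα, hαβ, hβ, hc₀, hc₁⟩ :=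
    bit (c := fun x => Fa x k) ((measurable_pi_apply k).comp hFa) hk
  have G₁ := ku hM
  have G₂ := ku_swap hM
  have hnear : ∃ᶠ x in residual ℝ, x ∈ Ioo (t₀ - L / 10) t₀ ∧ Z x :=
    hloc _ _ (by linarith) (by linarith) (by linarith)
  -- first parameter
  obtain ⟨s₁, ⟨hs₁, hZ₁⟩, hs₁G, hs₁G', hs₁n⟩ :=
    (hnear.and_eventually (G₁.and ((residual_affine G₂ hr.ne' 0).and (gen hn)))).exists
  simp only [add_zero] at hs₁G'
  -- second parameter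
  obtain ⟨ε, hε, hε₁, hε₂, hε₃⟩ : ∃ ε : ℝ, 0 < ε ∧ ε * (1 + r) ≤ β - α ∧
      ε * (1 + r) ≤ L / 10 ∧ ε ≤ r * (L / 10) := by
    have h1r : 0 < 1 + r := by linarith
    refine ⟨min (min ((β - α) / (1 + r)) (L / 10 / (1 + r))) (r * (L / 10)), ?_, ?_, ?_,
      min_le_right _ _⟩
    · have : 0 < β - α := by linarith
      positivity
    · rw [← le_div_iff₀ h1r]
      exact (min_le_left _ _).trans (min_le_left _ _)
    · rw [← le_div_iff₀ h1r]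
      exact (min_le_left _ _).trans (min_le_right _ _)
  have hεL : ε ≤ L / 10 := by nlinarith
  obtain ⟨s₂, ⟨hs₂, hZ₂⟩, hs₂G, hs₂G', hs₂n⟩ :=
    ((hloc (s₁ - ε) s₁ (by linarith [hs₁.1]) (by linarith) (by linarith [hs₁.2])).and_eventually
      (G₁.and ((residual_affine G₂ hr.ne' 0).and (gen hs₁n)))).exists
  simp only [add_zero] at hs₂G'
  obtain ⟨δ, hδdef⟩ : ∃ δ, δ = s₁ - s₂ := ⟨_, rfl⟩
  have hδ : 0 < δ := by linarith [hs₂.2]
  have hδε : δ < ε := by linarith [hs₂.1]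
  -- third parameter
  obtain ⟨s₃, ⟨hs₃, hZ₃⟩, hs₃G, hs₃G', hs₃M, hs₃M', hs₃n⟩ :=
    (hnear.and_eventually ((residual_affine G₂ hr.ne' 0).and ((residual_affine G₂ hr.ne' δ).and
      ((residual_affine hs₁G hr.ne' 0).and ((residual_affine hs₂G hr.ne' δ).and
        (gen hs₂n)))))).exists
  simp only [add_zero] at hs₃G hs₃M
  -- base point
  have hlat : ∀ᶠ z in residual ℝ, ∀ a b : ℤ,
      ((z + (a + b * r) * δ, r * s₁) ∈ M ∧ (z + (a + b * r) * δ, r * s₂) ∈ M ∧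
        (z + (a + b * r) * δ, r * s₃) ∈ M ∧ (z + (a + b * r) * δ, r * s₃ + δ) ∈ M) ∧
      (z + (a + b * r) * δ ∈ Ioo (t₀ - L) t₀ → Fa (z + (a + b * r) * δ) k = b₀) ∧
      (z + (a + b * r) * δ ∈ Ioo α β → Fa (z + (a + b * r) * δ) k = !b₀) := by
    rw [eventually_countable_forall]
    intro a
    rw [eventually_countable_forall]
    intro b
    have := residual_affine ((hs₁G'.and (hs₂G'.and (hs₃G.and hs₃G'))).and (hc₀.and hc₁))
      one_ne_zero ((a + b * r) * δ)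
    simpa only [one_mul] using this
  obtain ⟨z, ⟨hz, hZz⟩, hzl, hzn⟩ := (hnear.and_eventually (hlat.and (gen hs₃n))).exists
  apply hzn
  set P : Orc := join (join (join (join (cut r) (cut s₁)) (cut s₂)) (cut s₃)) (cut z) with hP
  apply h.q_red_of_red_p
  have Pz : Red (cut z) P := red_join_right _ _
  have P₃ : Red (cut s₃) P := (red_join_right _ _).trans (red_join_left _ _)
  have P₂ : Red (cut s₂) P :=
    ((red_join_right _ _).trans (red_join_left _ _)).trans (red_join_left _ _)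
  have P₁ : Red (cut s₁) P :=
    (((red_join_right _ _).trans (red_join_left _ _)).trans (red_join_left _ _)).trans
      (red_join_left _ _)
  have Pr : Red (cut r) P :=
    (((red_join_left _ _).trans (red_join_left _ _)).trans (red_join_left _ _)).trans
      (red_join_left _ _)
  have Ya : ∀ s, Z s → Red (cut s) P → Red (Fa s) (p P) := fun s hs hs' => by
    rw [← (hZ s hs).2.1]
    exact (h.p_iff _ _).2 hs'
  have Yb : ∀ s, Z s → Red (cut s) P → Red (Fb (r * s)) (p P) := fun s hs hs' => by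
    rw [← (hZ s hs).2.2]
    exact (h.p_iff _ _).2 ((cut_mul hr (hZ s hs).1).trans (Pr.join hs'))
  have I₁ : s₁ ∈ Ioo u₀ u₁ := ⟨by linarith [hs₁.1], by linarith [hs₁.2]⟩
  have I₂ : s₂ ∈ Ioo u₀ u₁ := ⟨by linarith [hs₁.1, hs₂.1], by linarith [hs₁.2, hs₂.2]⟩
  have I₃ : s₃ ∈ Ioo u₀ u₁ := ⟨by linarith [hs₃.1], by linarith [hs₃.2]⟩
  have J : ∀ s ∈ Ioo u₀ u₁, r * s ∈ Ioo (r * u₀) (r * u₁) := fun s hs =>
    ⟨mul_lt_mul_of_pos_left hs.1 hr, mul_lt_mul_of_pos_left hs.2 hr⟩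
  have J₄ : r * s₃ + δ ∈ Ioo (r * u₀) (r * u₁) := by
    constructor
    · linarith [(J _ I₃).1]
    · have : r * (s₃ + L / 10) < r * u₁ := mul_lt_mul_of_pos_left (by linarith [hs₃.2]) hr
      nlinarith
  have Y₁ := Yb s₁ hZ₁ P₁
  have Y₂ := Yb s₂ hZ₂ P₂
  have Y₃ := Yb s₃ hZ₃ P₃
  have Y₄ : Red (Fb (r * s₃ + δ)) (p P) := by
    have e₁ := (hD _ _ hs₃M I₁ (J _ I₃)).1
    have e₂ := (hD _ _ hs₃M' I₂ J₄).2.2
    have e₃ : s₂ + (r * s₃ + δ) = s₁ + r * s₃ := by rw [hδdef]; ring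
    rw [e₃] at e₂
    exact (e₂.red hQ₃).trans
      (((e₁.red hQ₁).trans ((Ya s₁ hZ₁ P₁).join Y₃)).join (Ya s₂ hZ₂ P₂))
  have step : ∀ t t' : ℝ, Red (Fb t) (p P) → Red (Fb t') (p P) → t ∈ Ioo (r * u₀) (r * u₁) →
      t' ∈ Ioo (r * u₀) (r * u₁) → ∃ S : Op, USig S ∧ ∀ u u' : ℝ, u + t = u' + t' →
        (u, t) ∈ M → (u', t') ∈ M → u ∈ Ioo u₀ u₁ → u' ∈ Ioo u₀ u₁ →
        Maps S (join (Fa u) (p P)) (Fa u') := by
    intro t t' ht ht' hI hI'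
    obtain ⟨S, hS, hS'⟩ := maps_step hQ₁ hQ₂ ht ht'
    refine ⟨S, hS, fun u u' e hm hm' hu hu' => hS' _ _ _ (hD _ _ hm hu hI).1 ?_⟩
    rw [e]
    exact (hD _ _ hm' hu' hI').2.1
  obtain ⟨S₁, hS₁, hS₁'⟩ := step _ _ Y₄ Y₃ J₄ (J _ I₃)
  obtain ⟨S₂, hS₂, hS₂'⟩ := step _ _ Y₃ Y₄ (J _ I₃) J₄
  obtain ⟨S₃, hS₃, hS₃'⟩ := step _ _ Y₁ Y₂ (J _ I₁) (J _ I₂)
  obtain ⟨S₄, hS₄, hS₄'⟩ := step _ _ Y₂ Y₁ (J _ I₂) (J _ I₁)
  have K : ∀ v : ℝ, |v| < 9 / 10 * L / δ → z + v * δ ∈ Ioo u₀ u₁ := fun v hv => by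
    rw [lt_div_iff₀ hδ] at hv
    have h1 : |v * δ| < 9 / 10 * L := by rwa [abs_mul, abs_of_pos hδ]
    have h2 := abs_lt.1 h1
    exact ⟨by linarith [hz.1, h2.1], by linarith [hz.2, h2.2]⟩
  obtain ⟨T, hT, hT'⟩ := sign_test (Y := p P) hr (fun a b => Fa (z + (a + b * r) * δ))
    (9 / 10 * L / δ) ((α - z) / δ) ((β - z) / δ) k b₀ hS₁ hS₂ hS₃ hS₄
    (by simpa using Ya z hZz Pz)
    (fun a b h1 h2 => by
      have h2' : |((a + 1 : ℤ) : ℝ) + b * r| < 9 / 10 * L / δ := by push_cast; exact h2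
      exact ⟨hS₁' _ _ (by push_cast; ring) (hzl a b).1.2.2.2 (hzl (a + 1) b).1.2.2.1 (K _ h1)
          (K _ h2'),
        hS₂' _ _ (by push_cast; ring) (hzl (a + 1) b).1.2.2.1 (hzl a b).1.2.2.2 (K _ h2')
          (K _ h1)⟩)
    (fun a b h1 h2 => by
      have h2' : |(a : ℝ) + ((b + 1 : ℤ) : ℝ) * r| < 9 / 10 * L / δ := by push_cast; exact h2
      exact ⟨hS₃' _ _ (by push_cast; rw [hδdef]; ring) (hzl a b).1.1 (hzl a (b + 1)).1.2.1
          (K _ h1) (K _ h2'),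
        hS₄' _ _ (by push_cast; rw [hδdef]; ring) (hzl a (b + 1)).1.2.1 (hzl a b).1.1 (K _ h2')
          (K _ h1)⟩)
    (fun a b h1 h2 => by
      apply (hzl a b).2.1
      have h3 : -(9 / 10 * L) < ((a : ℝ) + b * r) * δ := by
        rw [← neg_div, div_lt_iff₀ hδ] at h1
        exact h1
      have h4 : ((a : ℝ) + b * r) * δ ≤ 0 := mul_nonpos_of_nonpos_of_nonneg h2 hδ.le
      exact ⟨by linarith [hz.1], by linarith [hz.2]⟩)
    (fun a b h1 h2 => by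
      apply (hzl a b).2.2
      rw [div_lt_iff₀ hδ] at h1
      rw [lt_div_iff₀ hδ] at h2
      exact ⟨by linarith, by linarith⟩)
    (div_pos (by linarith [hz.2]) hδ)
    (by
      rw [lt_div_iff₀ hδ, add_mul, div_mul_cancel₀ _ hδ.ne']
      nlinarith)
    (by
      rw [lt_div_iff₀ hδ, add_mul, div_mul_cancel₀ _ hδ.ne']
      nlinarith [hz.1])
  exact red_cut_of_sign hr hirr hT hT'

theorem main {p q : Orc → Orc} (h : Aut p q) :
    ∀ᶠ r in residual ℝ, 0 < r → Red (q (cut r)) (cut r) := by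
  by_contra hB
  have hB' : ∃ᶠ r in residual ℝ, 0 < r ∧ ¬ Red (q (cut r)) (cut r) := by
    refine (not_eventually.1 hB).mono fun r hr => ?_
    exact Classical.not_imp.1 hr
  obtain ⟨F, hF, hcov⟩ := cover h
  obtain ⟨E, hE, hEs⟩ := exists_enum_op
  let D : (ℕ × ℕ × ℕ) × ℕ × ℕ × ℕ → Set (ℝ × ℝ) := fun d =>
    {w | Maps (E d.2.1) (join (F d.1.1 w.1) (F d.1.2.1 w.2)) (F d.1.2.2 (w.1 + w.2)) ∧
      Maps (E d.2.2.1) (join (F d.1.2.2 (w.1 + w.2)) (F d.1.2.1 w.2)) (F d.1.1 w.1) ∧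
      Maps (E d.2.2.2) (join (F d.1.2.2 (w.1 + w.2)) (F d.1.1 w.1)) (F d.1.2.1 w.2)}
  let Z : (ℕ × ℕ × ℕ) × ℕ × ℕ × ℕ → ℝ → ℝ → Prop := fun d r s =>
    (0 < s ∧ p (cut s) = F d.1.1 s ∧ p (cut (r * s)) = F d.1.2.1 (r * s)) ∧ (s, r * s) ∈ D d
  have h1 : ∀ r s : ℝ, 0 < r → 0 < s → ∃ d, Z d r s := by
    intro r s hr hs
    have ht : 0 < r * s := mul_pos hr hs
    obtain ⟨a, ha⟩ := hcov s
    obtain ⟨b, hb⟩ := hcov (r * s)
    obtain ⟨c, hc⟩ := hcov (s + r * s)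
    obtain ⟨Q₁, hQ₁, m₁⟩ := h.red_join (cut_add hs ht)
    obtain ⟨Q₂, hQ₂, m₂⟩ := h.red_join (cut_sub hs ht)
    obtain ⟨Q₃, hQ₃, m₃⟩ := h.red_join (cut_sub ht hs)
    rw [add_comm (r * s) s] at m₃
    obtain ⟨e₁, rfl⟩ := hEs Q₁ hQ₁
    obtain ⟨e₂, rfl⟩ := hEs Q₂ hQ₂
    obtain ⟨e₃, rfl⟩ := hEs Q₃ hQ₃
    rw [ha, hb, hc] at m₁ m₂ m₃
    exact ⟨((a, b, c), e₁, e₂, e₃), ⟨hs, ha, hb⟩, m₁, m₂, m₃⟩
  have h2 : ∀ r : ℝ, 0 < r → ∃ d, ∃ᶠ s in residual ℝ, Z d r s := fun r hr =>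
    frequently_pigeon ((frequently_Ioo (zero_lt_one' ℝ)).mono fun s hs => h1 r s hr hs.1)
  obtain ⟨d, hd⟩ := frequently_pigeon
    (P := fun d r => (0 < r ∧ ¬ Red (q (cut r)) (cut r)) ∧ ∃ᶠ s in residual ℝ, Z d r s)
    (hB'.mono fun r hr => (h2 r hr.1).imp fun d hd => ⟨hr, hd⟩)
  have mA : Measurable fun w : ℝ × ℝ => F d.1.1 w.1 := (hF _).comp measurable_fst
  have mB : Measurable fun w : ℝ × ℝ => F d.1.2.1 w.2 := (hF _).comp measurable_snd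
  have mC : Measurable fun w : ℝ × ℝ => F d.1.2.2 (w.1 + w.2) :=
    (hF _).comp (measurable_fst.add measurable_snd)
  have hDm : MeasurableSet (D d) :=
    (measurableSet_maps (hE _) (measurable_join mA mB) mC).inter
      ((measurableSet_maps (hE _) (measurable_join mC mB) mA).inter
        (measurableSet_maps (hE _) (measurable_join mC mA) mB))
  obtain ⟨O, hO, hDO⟩ := hDm.residualEq_isOpen
  have hM : {w | w ∈ D d ↔ w ∈ O} ∈ residual (ℝ × ℝ) := eventuallyEq_set.1 hDO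
  have hirr : ∀ᶠ r in residual ℝ, Irrational r :=
    residual_notMem_countable (countable_range ((↑) : ℚ → ℝ))
  obtain ⟨r, ⟨⟨hr, hrn⟩, hrZ⟩, hri, hrM⟩ := (hd.and_eventually (hirr.and (ku_mul hM))).exists
  obtain ⟨u₀, u₁, hu, hloc⟩ := localize hrZ
  obtain ⟨s₀, ⟨hs₀, hZ₀⟩, hs₀M⟩ := ((hloc u₀ u₁ le_rfl hu le_rfl).and_eventually hrM).exists
  have hs₀O : (s₀, r * s₀) ∈ O := hs₀M.1 hZ₀.2
  obtain ⟨ε, hε, hball⟩ := Metric.isOpen_iff.1 hO _ hs₀O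
  obtain ⟨η, hη, hη₁, hη₂, hη₃, hη₄⟩ : ∃ η : ℝ, 0 < η ∧ η ≤ ε ∧ r * η ≤ ε ∧ u₀ ≤ s₀ - η ∧
      s₀ + η ≤ u₁ := by
    refine ⟨min (min ε (ε / r)) (min (s₀ - u₀) (u₁ - s₀)), ?_, ?_, ?_, ?_, ?_⟩
    · have := sub_pos.2 hs₀.1
      have := sub_pos.2 hs₀.2
      positivity
    · exact (min_le_left _ _).trans (min_le_left _ _)
    · rw [mul_comm, ← le_div_iff₀ hr]
      exact (min_le_left _ _).trans (min_le_right _ _)
    · linarith [(min_le_right (min ε (ε / r)) _).trans (min_le_left (s₀ - u₀) (u₁ - s₀))]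
    · linarith [(min_le_right (min ε (ε / r)) _).trans (min_le_right (s₀ - u₀) (u₁ - s₀))]
  refine hrn (core h (Fb := F d.1.2.1) (Fc := F d.1.2.2) (hF d.1.1) (hE d.2.1) (hE d.2.2.1)
    (hE d.2.2.2) hr hri (u₀ := s₀ - η) (u₁ := s₀ + η) (by linarith) (Z := Z d r)
    (fun s hs => hs.1) (fun a b ha hab hb => hloc a b (hη₃.trans ha) hab (hb.trans hη₄)) hM ?_)
  intro u t hm hu' ht'
  have : (u, t) ∈ O := by
    apply hball
    rw [Metric.mem_ball, Prod.dist_eq, max_lt_iff, Real.dist_eq, Real.dist_eq, abs_lt, abs_lt]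
    refine ⟨⟨?_, ?_⟩, ?_, ?_⟩
    · linarith [hu'.1]
    · linarith [hu'.2]
    · nlinarith [ht'.1]
    · nlinarith [ht'.2]
  exact hm.2 this

/-- Every automorphism maps each degree below itself. -/
theorem final {p q : Orc → Orc} (h : Aut p q) (X : Orc) : Red (q X) X := by
  obtain ⟨x, hx, hX, hX'⟩ := exists_cut_equiv X
  suffices H : Red (q (cut x)) (cut x) from (((h.q_iff _ _).2 hX).trans H).trans hX'
  by_contra hn
  have hm := main h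
  obtain ⟨g, hg, hg₁, hg₂, hg₃⟩ := ((frequently_Ioo (zero_lt_one' ℝ)).and_eventually
    (hm.and ((residual_affine hm one_ne_zero x).and (gen hn)))).exists
  simp only [one_mul] at hg₂
  apply hg₃
  have e₁ : Red (q (cut x)) (join (q (cut (x + g))) (q (cut g))) :=
    h.symm.red_join (cut_sub hx hg.1)
  have e₂ : Red (q (cut (x + g))) (join (cut x) (cut g)) := by
    rw [add_comm g x] at hg₂
    exact (hg₂ (add_pos hx hg.1)).trans (cut_add hx hg.1)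
  exact e₁.trans (e₂.join ((hg₁ hg.1).trans (red_join_right _ _)))

end Crest.Agent.R292
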