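import Crest.Agent.R292.Sig

/-!
# Row 292: basic facts on `Red`, `join`, `Aut`; countability; measurability  (task R292-Red)

Plans are in the docstrings; everything follows from the closure lemmas of `Sig.lean`.
-/

set_option autoImplicit false

namespace Crest.Agent.R292

theorem red_op_comp {Q₁ Q₂ : Op} (h₁ : USig Q₁) (h₂ : USig Q₂) :
    ∃ S : Op, USig S ∧ ∀ Y W X : Orc, Maps Q₁ Y W → Maps Q₂ W X → Maps S Y X := by
  obtain ⟨S, hS, hS'⟩ := h₂.subst (Q := fun Y (x : (ℕ × Bool) × ℕ × Bool) => Q₁ Y x.2)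
    (h₁.comp Primrec.snd)
  exact ⟨S, hS, fun Y W X hW hX n b => (hX n b).trans (hS' Y (n, b) W hW).symm⟩

theorem red_op_join {Q₁ Q₂ : Op} (h₁ : USig Q₁) (h₂ : USig Q₂) :
    ∃ S : Op, USig S ∧ ∀ Y W X : Orc, Maps Q₁ Y W → Maps Q₂ Y X → Maps S Y (join W X) := by
  have hd : Primrec fun p : ℕ × Bool => (p.1 / 2, p.2) :=
    (Primrec.nat_div.comp Primrec.fst (Primrec.const 2)).pair Primrec.snd
  have hm : PrimrecPred fun p : ℕ × Bool => p.1 % 2 = 0 :=
    Primrec.eq.comp (Primrec.nat_mod.comp Primrec.fst (Primrec.const 2)) (Primrec.const 0)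
  refine ⟨_, ((USig.of_primrecPred hm).and (h₁.comp hd)).or
    ((USig.of_primrecPred hm.not).and (h₂.comp hd)), fun Y W X hW hX n b => ?_⟩
  by_cases h : n % 2 = 0
  · simp only [join, h, if_true, true_and, not_true, false_and, or_false]
    exact hW _ _
  · simp only [join, h, if_false, true_and, not_false_iff, false_and, false_or]
    exact hX _ _

theorem red_op_left : ∃ S : Op, USig S ∧ ∀ X Y : Orc, Maps S (join X Y) X :=
  ⟨_, USig.query (Primrec.nat_double.comp Primrec.fst) Primrec.snd, fun X Y n b => by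
    simp only [join_even]⟩

theorem red_op_right : ∃ S : Op, USig S ∧ ∀ X Y : Orc, Maps S (join X Y) Y :=
  ⟨_, USig.query (Primrec.nat_double_succ.comp Primrec.fst) Primrec.snd, fun X Y n b => by
    simp only [join_odd]⟩

theorem red_countable_primrecPred {β : Type} [Primcodable β] :
    {p : β → Prop | PrimrecPred p}.Countable := by
  classical
  refine (Set.countable_range fun (c : Nat.Partrec.Code) (b : β) =>
    c.eval (Encodable.encode b) = Part.some (Encodable.encode (some true))).mono ?_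
  intro p hp
  have h1 : Primrec fun a => decide (p a) := PrimrecPred.decide hp
  obtain ⟨c, hc⟩ := Nat.Partrec.Code.exists_code.1 (Nat.Partrec.of_primrec h1)
  refine ⟨c, funext fun b => propext ?_⟩
  beta_reduce
  rw [hc]
  simp only [PFun.coe_val, Encodable.encodek, Option.map_some, Part.some_inj,
    Encodable.encode_inj, Option.some.injEq, decide_eq_true_eq]

theorem Red.refl (X : Orc) : Red X X := by
  exact (red_iff_sig X X).2 (Sig.query Primrec.fst Primrec.snd)

theorem Red.trans {X Y Z : Orc} (h : Red X Y) (h' : Red Y Z) : Red X Z := by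
  exact (red_iff_sig X Z).2 (((red_iff_sig X Y).1 h).of_red h')

theorem red_of_primrec {X : Orc} (h : Primrec X) (Y : Orc) : Red X Y := by
  exact (red_iff_sig X Y).2 (Sig.of_primrecPred (Primrec.eq.comp (h.comp Primrec.fst) Primrec.snd))

theorem red_comp (Y : Orc) {f : ℕ → ℕ} (hf : Primrec f) : Red (fun n => Y (f n)) Y := by
  exact (red_iff_sig _ Y).2 (Sig.query (hf.comp Primrec.fst) Primrec.snd)

theorem red_join_left (X Y : Orc) : Red X (join X Y) := by
  obtain ⟨S, hS, h⟩ := red_op_left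
  exact ⟨S, hS, h X Y⟩

theorem red_join_right (X Y : Orc) : Red Y (join X Y) := by
  obtain ⟨S, hS, h⟩ := red_op_right
  exact ⟨S, hS, h X Y⟩

/-- `join X Y n = b ↔ (n % 2 = 0 ∧ X (n/2) = b) ∨ (n % 2 = 1 ∧ Y (n/2) = b)`; `Red.query`. -/
theorem Red.join {X Y Z : Orc} (hX : Red X Z) (hY : Red Y Z) : Red (join X Y) Z := by
  obtain ⟨Q₁, h₁, hX⟩ := hX
  obtain ⟨Q₂, h₂, hY⟩ := hY
  obtain ⟨S, hS, h⟩ := red_op_join h₁ h₂
  exact ⟨S, hS, h _ _ _ hX hY⟩

/-- Uniform composition of two steps with side parameters reducible to `Y`.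
Plan: let `T₁, T₂` compute `B₁, B₂` from `Y`.  There is a `USig` operator `J₁` with
`Maps J₁ (join X Y) (join X B₁)` for all `X` (even bits: query `2*(n/2)`; odd bits: `T₁` run on the
odd half, via `USig.subst`).  Then `USig.subst` gives `S₁` with `Maps S₁ (join X Y) W`; similarly an
operator computing `join W B₂` from `join X Y`, and `USig.subst` once more. -/
theorem maps_step {Q₁ Q₂ : Op} (h₁ : USig Q₁) (h₂ : USig Q₂) {B₁ B₂ Y : Orc} (hB₁ : Red B₁ Y)
    (hB₂ : Red B₂ Y) :
    ∃ S : Op, USig S ∧ ∀ X W X' : Orc,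
      Maps Q₁ (join X B₁) W → Maps Q₂ (join W B₂) X' → Maps S (join X Y) X' := by
  obtain ⟨T₁, t₁, hT₁⟩ := hB₁
  obtain ⟨T₂, t₂, hT₂⟩ := hB₂
  obtain ⟨L, l, hL⟩ := red_op_left
  obtain ⟨R, r, hR⟩ := red_op_right
  obtain ⟨U₁, u₁, hU₁⟩ := red_op_comp r t₁
  obtain ⟨U₂, u₂, hU₂⟩ := red_op_comp r t₂
  obtain ⟨J₁, j₁, hJ₁⟩ := red_op_join l u₁
  obtain ⟨S₁, s₁, hS₁⟩ := red_op_comp j₁ h₁
  obtain ⟨J₂, j₂, hJ₂⟩ := red_op_join s₁ u₂
  obtain ⟨S, s, hS⟩ := red_op_comp j₂ h₂
  refine ⟨S, s, fun X W X' hW hX' => hS _ _ _ (hJ₂ _ _ _ (hS₁ _ _ _ (hJ₁ _ _ _ (hL X Y)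
    (hU₁ _ _ _ (hR X Y) hT₁)) hW) (hU₂ _ _ _ (hR X Y) hT₂)) hX'⟩

/-- Only countably many primitive recursive relations (`Primrec → Computable`,
`Nat.Partrec.Code.exists_code`, codes are countable); `P` is determined by its relation `R`. -/
theorem countable_usig {α : Type} [Primcodable α] : {P : Orc → α → Prop | USig P}.Countable := by
  refine ((red_countable_primrecPred (β := α × List Bool)).image
    fun (p : α × List Bool → Prop) (Y : Orc) (a : α) => ∃ M, p (a, pre Y M)).mono ?_
  rintro P ⟨R, hR, h⟩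
  exact ⟨fun x => R x.1 x.2, hR, funext fun Y => funext fun a => propext (h Y a).symm⟩

theorem exists_enum_op : ∃ E : ℕ → Op, (∀ e, USig (E e)) ∧ ∀ Q : Op, USig Q → ∃ e, E e = Q := by
  obtain ⟨S, hS, -⟩ := red_op_left
  obtain ⟨E, hE⟩ := (countable_usig (α := ℕ × Bool)).exists_eq_range ⟨S, hS⟩
  refine ⟨E, fun e => ?_, fun Q hQ => ?_⟩
  · have : E e ∈ {P : Orc → ℕ × Bool → Prop | USig P} := hE ▸ Set.mem_range_self e
    exact this
  · have : Q ∈ Set.range E := hE ▸ hQ
    exact this

theorem countable_red (Y : Orc) : {X : Orc | Red X Y}.Countable := by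
  obtain ⟨E, -, hE⟩ := exists_enum_op
  refine (Set.countable_iUnion fun e => Set.Subsingleton.countable
    (s := {X : Orc | Maps (E e) Y X}) fun X hX X' hX' => Maps.unique hX hX').mono ?_
  rintro X ⟨Q, hQ, hX⟩
  obtain ⟨e, rfl⟩ := hE Q hQ
  exact Set.mem_iUnion.2 ⟨e, hX⟩

/-- `q (p X) ≡ X`. -/
theorem Aut.q_red_of_red_p {p q : Orc → Orc} (h : Aut p q) {X Y : Orc} (hXY : Red X (p Y)) :
    Red (q X) Y :=
  ((h.q_iff _ _).2 hXY).trans (h.qp_le Y)

/-- Automorphisms preserve joins: with `W = join (p Y) (p Z)`, `Y, Z ≤ q W`, so `X ≤ q W` and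
`p X ≤ p (q W) ≤ W`. -/
theorem Aut.red_join {p q : Orc → Orc} (h : Aut p q) {X Y Z : Orc} (hX : Red X (join Y Z)) :
    Red (p X) (join (p Y) (p Z)) := by
  have hY : Red Y (q (join (p Y) (p Z))) :=
    (h.le_qp Y).trans ((h.q_iff _ _).2 (red_join_left _ _))
  have hZ : Red Z (q (join (p Y) (p Z))) :=
    (h.le_qp Z).trans ((h.q_iff _ _).2 (red_join_right _ _))
  exact ((h.p_iff _ _).2 (hX.trans (hY.join hZ))).trans (h.pq_le _)

section measurability

variable {γ : Type} [MeasurableSpace γ]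

/-- `{x | ∃ M, R a (pre (f x) M)}`: countable union of preimages under the measurable map
`x ↦ pre (f x) M` (finitely many coordinates; e.g. write it as a countable union over `σ` with
`R a σ` of `⋂ i < σ.length, {x | f x i = σ.getD i false}`, `eq_pre_iff`). -/
theorem measurableSet_usig {α : Type} [Primcodable α] {P : Orc → α → Prop} (h : USig P)
    {f : γ → Orc} (hf : Measurable f) (a : α) : MeasurableSet {x | P (f x) a} := by
  obtain ⟨R, -, h⟩ := h
  have e : {x | P (f x) a} = ⋃ σ : List Bool, ⋃ _ : R a σ, ⋂ i : ℕ, ⋂ _ : i < σ.length,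
      (fun x => f x i) ⁻¹' {σ.getD i false} := by
    ext x
    simp only [Set.mem_setOf_eq, h, Set.mem_iUnion, Set.mem_iInter, Set.mem_preimage,
      Set.mem_singleton_iff, exists_prop]
    constructor
    · rintro ⟨M, hM⟩
      refine ⟨_, hM, fun i hi => ?_⟩
      rw [pre_length] at hi
      exact (pre_getD _ hi false).symm
    · rintro ⟨σ, h1, h2⟩
      exact ⟨σ.length, (eq_pre_iff (f x) σ).2 h2 ▸ h1⟩
  rw [e]
  exact MeasurableSet.iUnion fun σ => MeasurableSet.iUnion fun _ => MeasurableSet.iInter fun i =>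
    MeasurableSet.iInter fun _ => ((measurable_pi_apply i).comp hf) (measurableSet_singleton _)

theorem measurableSet_maps {Q : Op} (h : USig Q) {f g : γ → Orc} (hf : Measurable f)
    (hg : Measurable g) : MeasurableSet {x | Maps Q (f x) (g x)} := by
  refine measurableSet_setOf.2 (Measurable.forall fun n => Measurable.forall fun b =>
    Measurable.iff ?_ (measurableSet_setOf.1 (measurableSet_usig h hf (n, b))))
  exact measurableSet_setOf.1 (((measurable_pi_apply n).comp hg) (measurableSet_singleton b))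

/-- Countable union over `exists_enum_op`. -/
theorem measurableSet_red {f g : γ → Orc} (hf : Measurable f) (hg : Measurable g) :
    MeasurableSet {x | Red (f x) (g x)} := by
  obtain ⟨E, hE, hE'⟩ := exists_enum_op
  have e : {x | Red (f x) (g x)} = ⋃ e, {x | Maps (E e) (g x) (f x)} := by
    ext x
    simp only [Set.mem_setOf_eq, Set.mem_iUnion]
    constructor
    · rintro ⟨Q, hQ, h⟩
      obtain ⟨e, rfl⟩ := hE' Q hQ
      exact ⟨e, h⟩
    · rintro ⟨e, h⟩
      exact ⟨_, hE e, h⟩
  rw [e]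
  exact MeasurableSet.iUnion fun e => measurableSet_maps (hE e) hg hf

theorem measurable_join {f g : γ → Orc} (hf : Measurable f) (hg : Measurable g) :
    Measurable fun x => join (f x) (g x) := by
  refine measurable_pi_lambda _ fun n => ?_
  unfold join
  split_ifs
  · exact (measurable_pi_apply _).comp hf
  · exact (measurable_pi_apply _).comp hg

theorem measurable_cut : Measurable cut := by
  refine measurable_pi_lambda _ fun n => measurable_to_bool ?_
  have e : (fun x : ℝ => cut x n) ⁻¹' {true} =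
      {x : ℝ | (n.unpair.1 : ℝ) < x * ((n.unpair.2 : ℝ) + 1)} := by
    ext x
    simp [cut]
  rw [e]
  exact measurableSet_lt measurable_const (measurable_id.mul_const _)

end measurability

end Crest.Agent.R292
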