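import Crest.Agent.R292.Defs

/-!
# Row 292: closure properties of `USig` / `Sig`   (task R292-Sig)

Plan.  `mono_wit`: replace `R a σ` by `∃ k < σ.length + 1, R a (σ.take k)`
(`PrimrecRel.exists_lt`, `Primrec.list_take`, `pre_take`).  With monotone witnesses: `and` takes the
max of the two uses; `exists` uses `R' a σ := ∃ k < σ.length, ∃ b ∈ (decode k : Option β), R (a,b) σ`
(e.g. `(decode k).casesOn False ..` or `∃ b ∈ (decode k).toList`, `PrimrecRel.exists_mem_list`);
`ball` uses `R' a σ := ∀ i < g a, R (a,i) σ` and a finite max (induction on `g a`).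
`query`: `R a σ := f a < σ.length ∧ σ.getD (f a) false = g a`.
`subst`: if `P W a ↔ ∃ M, R a (pre W M)`, put
`S Y a := ∃ σ : List Bool, R a σ ∧ ∀ i < σ.length, Q Y (a, i, σ.getD i false)` and use `eq_pre_iff`.
-/

set_option autoImplicit false

namespace Crest.Agent.R292

variable {α β : Type} [Primcodable α] [Primcodable β]

theorem USig.congr {P Q : Orc → α → Prop} (h : USig P) (H : ∀ Y a, P Y a ↔ Q Y a) : USig Q := by
  obtain ⟨R, hR, h⟩ := h
  exact ⟨R, hR, fun Y a => (H Y a).symm.trans (h Y a)⟩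

theorem sig_bex {p : α → β → Prop} (hp : PrimrecRel p) {L : α → List β} (hL : Primrec L) :
    PrimrecPred fun a => ∃ b ∈ L a, p a b :=
  (PrimrecRel.exists_mem_list (R := fun b a => p a b) hp.swap).comp hL Primrec.id

theorem sig_ball {p : α → β → Prop} (hp : PrimrecRel p) {L : α → List β} (hL : Primrec L) :
    PrimrecPred fun a => ∀ b ∈ L a, p a b :=
  (PrimrecRel.forall_mem_list (R := fun b a => p a b) hp.swap).comp hL Primrec.id

theorem sig_bex_lt {p : α → ℕ → Prop} (hp : PrimrecRel p) {g : α → ℕ} (hg : Primrec g) :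
    PrimrecPred fun a => ∃ b < g a, p a b :=
  (sig_bex hp (Primrec.list_range.comp hg)).of_eq (by simp)

theorem sig_ball_lt {p : α → ℕ → Prop} (hp : PrimrecRel p) {g : α → ℕ} (hg : Primrec g) :
    PrimrecPred fun a => ∀ b < g a, p a b :=
  (sig_ball hp (Primrec.list_range.comp hg)).of_eq (by simp)

/-- The witness relation can be taken monotone in the length of the prefix. -/
theorem USig.mono_wit {P : Orc → α → Prop} (h : USig P) :
    ∃ R : α → List Bool → Prop, PrimrecRel R ∧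
      (∀ Y a M M', M ≤ M' → R a (pre Y M) → R a (pre Y M')) ∧
      ∀ Y a, P Y a ↔ ∃ M, R a (pre Y M) := by
  obtain ⟨R, hR, h⟩ := h
  refine ⟨fun a σ => ∃ k < σ.length + 1, R a (σ.take k), ?_, ?_, ?_⟩
  · exact sig_bex_lt (α := α × List Bool) (p := fun x k => R x.1 (x.2.take k))
      (hR.comp (Primrec.fst.comp Primrec.fst)
        (Primrec.list_take.comp Primrec.snd (Primrec.snd.comp Primrec.fst)))
      (Primrec.succ.comp (Primrec.list_length.comp Primrec.snd))
  · rintro Y a M M' hM ⟨k, hk, hr⟩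
    rw [pre_length] at hk
    refine ⟨k, by rw [pre_length]; omega, ?_⟩
    rw [pre_take Y (by omega)] at hr ⊢
    exact hr
  · intro Y a
    rw [h]
    constructor
    · rintro ⟨M, hM⟩
      exact ⟨M, M, by simp, by rwa [pre_take Y le_rfl]⟩
    · rintro ⟨M, k, hk, hr⟩
      rw [pre_length] at hk
      rw [pre_take Y (by omega)] at hr
      exact ⟨k, hr⟩

theorem USig.of_primrecPred {p : α → Prop} (hp : PrimrecPred p) : USig fun (_ : Orc) a => p a := by
  exact ⟨fun a _ => p a, hp.comp Primrec.fst, fun Y a => ⟨fun h => ⟨0, h⟩, fun ⟨_, h⟩ => h⟩⟩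

theorem USig.query {f : α → ℕ} {g : α → Bool} (hf : Primrec f) (hg : Primrec g) :
    USig fun (Y : Orc) a => Y (f a) = g a := by
  refine ⟨fun a σ => f a < σ.length ∧ σ.getD (f a) false = g a, ?_, fun Y a => ?_⟩
  · exact (Primrec.nat_lt.comp (hf.comp Primrec.fst)
      (Primrec.list_length.comp Primrec.snd)).and (Primrec.eq.comp
        ((Primrec.list_getD false).comp Primrec.snd (hf.comp Primrec.fst)) (hg.comp Primrec.fst))
  · constructor
    · intro h
      exact ⟨f a + 1, by simp, by rw [pre_getD Y (Nat.lt_succ_self _), h]⟩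
    · rintro ⟨M, h1, h2⟩
      rw [pre_length] at h1
      rwa [pre_getD Y h1] at h2

theorem USig.comp {P : Orc → α → Prop} (h : USig P) {f : β → α} (hf : Primrec f) :
    USig fun Y b => P Y (f b) := by
  obtain ⟨R, hR, h⟩ := h
  exact ⟨fun b σ => R (f b) σ, hR.comp (hf.comp Primrec.fst) Primrec.snd, fun Y b => h Y (f b)⟩

theorem USig.and {P Q : Orc → α → Prop} (hP : USig P) (hQ : USig Q) :
    USig fun Y a => P Y a ∧ Q Y a := by
  obtain ⟨R, hR, hm, h⟩ := hP.mono_wit
  obtain ⟨R', hR', hm', h'⟩ := hQ.mono_wit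
  refine ⟨fun a σ => R a σ ∧ R' a σ, PrimrecPred.and hR hR', fun Y a => ?_⟩
  beta_reduce
  rw [h, h']
  constructor
  · rintro ⟨⟨M, hM⟩, ⟨M', hM'⟩⟩
    exact ⟨max M M', hm Y a _ _ (le_max_left _ _) hM, hm' Y a _ _ (le_max_right _ _) hM'⟩
  · rintro ⟨M, h1, h2⟩
    exact ⟨⟨M, h1⟩, ⟨M, h2⟩⟩

theorem USig.or {P Q : Orc → α → Prop} (hP : USig P) (hQ : USig Q) :
    USig fun Y a => P Y a ∨ Q Y a := by
  obtain ⟨R, hR, h⟩ := hP
  obtain ⟨R', hR', h'⟩ := hQ
  refine ⟨fun a σ => R a σ ∨ R' a σ, PrimrecPred.or hR hR', fun Y a => ?_⟩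
  beta_reduce
  rw [h, h', exists_or]

theorem USig.exists {P : Orc → α × β → Prop} (h : USig P) :
    USig fun Y a => ∃ b, P Y (a, b) := by
  obtain ⟨R, hR, hm, h⟩ := h.mono_wit
  refine ⟨fun a σ => ∃ b ∈ (List.range σ.length).filterMap (Encodable.decode (α := β)),
    R (a, b) σ, ?_, fun Y a => ?_⟩
  · refine sig_bex (α := α × List Bool) (p := fun x b => R (x.1, b) x.2)
      (hR.comp ((Primrec.fst.comp Primrec.fst).pair Primrec.snd) (Primrec.snd.comp Primrec.fst))
      (L := fun x => (List.range x.2.length).filterMap (Encodable.decode (α := β))) ?_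
    exact Primrec.listFilterMap (Primrec.list_range.comp (Primrec.list_length.comp Primrec.snd))
      (g := fun _ n => Encodable.decode (α := β) n) (Primrec.decode.comp Primrec.snd).to₂
  · constructor
    · rintro ⟨b, hb⟩
      obtain ⟨M, hM⟩ := (h Y (a, b)).1 hb
      refine ⟨max M (Encodable.encode b + 1), b, ?_, hm Y _ _ _ (le_max_left _ _) hM⟩
      refine List.mem_filterMap.2 ⟨Encodable.encode b, ?_, Encodable.encodek b⟩
      rw [pre_length, List.mem_range]
      exact lt_of_lt_of_le (Nat.lt_succ_self _) (le_max_right _ _)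
    · rintro ⟨M, b, -, hb⟩
      exact ⟨b, (h Y (a, b)).2 ⟨M, hb⟩⟩

theorem USig.ball {P : Orc → α × ℕ → Prop} (h : USig P) {g : α → ℕ} (hg : Primrec g) :
    USig fun Y a => ∀ i < g a, P Y (a, i) := by
  obtain ⟨R, hR, hm, h⟩ := h.mono_wit
  refine ⟨fun a σ => ∀ i < g a, R (a, i) σ, ?_, fun Y a => ?_⟩
  · exact sig_ball_lt (α := α × List Bool) (p := fun x i => R (x.1, i) x.2)
      (hR.comp ((Primrec.fst.comp Primrec.fst).pair Primrec.snd) (Primrec.snd.comp Primrec.fst))
      (hg.comp Primrec.fst)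
  · constructor
    · beta_reduce
      generalize g a = n
      intro H
      induction n with
      | zero => exact ⟨0, fun i hi => absurd hi (Nat.not_lt_zero _)⟩
      | succ n ih =>
        obtain ⟨M, hM⟩ := ih fun i hi => H i (by omega)
        obtain ⟨M', hM'⟩ := (h Y (a, n)).1 (H n (Nat.lt_succ_self n))
        refine ⟨max M M', fun i hi => ?_⟩
        rcases Nat.lt_succ_iff_lt_or_eq.1 hi with hi | rfl
        · exact hm Y _ _ _ (le_max_left _ _) (hM i hi)
        · exact hm Y _ _ _ (le_max_right _ _) hM'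
    · rintro ⟨M, hM⟩ i hi
      exact (h Y (a, i)).2 ⟨M, hM i hi⟩

/-- Substituting a (parametrised) Turing functional for the oracle. -/
theorem USig.subst {P : Orc → α → Prop} {Q : Orc → α × ℕ × Bool → Prop} (hP : USig P)
    (hQ : USig Q) :
    ∃ S : Orc → α → Prop, USig S ∧
      ∀ (Y : Orc) (a : α) (W : Orc), (∀ n b, W n = b ↔ Q Y (a, n, b)) → (S Y a ↔ P W a) := by
  obtain ⟨R, hR, h⟩ := hP
  refine ⟨fun Y a => ∃ σ : List Bool, R a σ ∧ ∀ i < σ.length, Q Y (a, i, σ.getD i false), ?_, ?_⟩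
  · have h1 : USig fun (Y : Orc) (x : (α × List Bool) × ℕ) =>
        Q Y (x.1.1, x.2, x.1.2.getD x.2 false) :=
      hQ.comp ((Primrec.fst.comp Primrec.fst).pair (Primrec.snd.pair
        ((Primrec.list_getD false).comp (Primrec.snd.comp Primrec.fst) Primrec.snd)))
    have h2 := h1.ball (g := fun x : α × List Bool => x.2.length)
      (Primrec.list_length.comp Primrec.snd)
    have h3 : USig fun (_ : Orc) (x : α × List Bool) => R x.1 x.2 := USig.of_primrecPred hR
    exact (h3.and h2).exists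
  · intro Y a W hW
    rw [h]
    constructor
    · rintro ⟨σ, h1, h2⟩
      have : σ = pre W σ.length := (eq_pre_iff W σ).2 fun i hi => (hW i _).2 (h2 i hi)
      exact ⟨σ.length, this ▸ h1⟩
    · rintro ⟨M, hM⟩
      refine ⟨pre W M, hM, fun i hi => ?_⟩
      rw [pre_length] at hi
      exact (hW i _).1 (pre_getD W hi false).symm

/-- Finite use: a `USig` fact only depends on a finite prefix of the oracle. -/
theorem USig.use {P : Orc → α → Prop} (h : USig P) {Y : Orc} {a : α} (hP : P Y a) :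
    ∃ M, ∀ Z : Orc, (∀ i < M, Z i = Y i) → P Z a := by
  obtain ⟨R, -, h⟩ := h
  obtain ⟨M, hM⟩ := (h Y a).1 hP
  exact ⟨M, fun Z hZ => (h Z a).2 ⟨M, by rwa [pre_congr hZ]⟩⟩

/-! ### The same for a fixed oracle -/

variable {Y : Orc}

theorem USig.sig {P : Orc → α → Prop} (h : USig P) (Y : Orc) : Sig Y (P Y) :=
  ⟨P, h, fun _ => Iff.rfl⟩

theorem Sig.congr {P Q : α → Prop} (h : Sig Y P) (H : ∀ a, P a ↔ Q a) : Sig Y Q := by
  obtain ⟨R, hR, h⟩ := h
  exact ⟨R, hR, fun a => (H a).symm.trans (h a)⟩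

theorem Sig.of_primrecPred {p : α → Prop} (hp : PrimrecPred p) : Sig Y p :=
  (USig.of_primrecPred hp).sig Y

theorem Sig.query {f : α → ℕ} {g : α → Bool} (hf : Primrec f) (hg : Primrec g) :
    Sig Y fun a => Y (f a) = g a :=
  (USig.query hf hg).sig Y

theorem Sig.comp {P : α → Prop} (h : Sig Y P) {f : β → α} (hf : Primrec f) :
    Sig Y fun b => P (f b) := by
  obtain ⟨R, hR, h⟩ := h
  exact ⟨_, hR.comp hf, fun b => h (f b)⟩

theorem Sig.and {P Q : α → Prop} (hP : Sig Y P) (hQ : Sig Y Q) : Sig Y fun a => P a ∧ Q a := by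
  obtain ⟨R, hR, h⟩ := hP
  obtain ⟨R', hR', h'⟩ := hQ
  exact ⟨_, hR.and hR', fun a => and_congr (h a) (h' a)⟩

theorem Sig.or {P Q : α → Prop} (hP : Sig Y P) (hQ : Sig Y Q) : Sig Y fun a => P a ∨ Q a := by
  obtain ⟨R, hR, h⟩ := hP
  obtain ⟨R', hR', h'⟩ := hQ
  exact ⟨_, hR.or hR', fun a => or_congr (h a) (h' a)⟩

theorem Sig.exists {P : α × β → Prop} (h : Sig Y P) : Sig Y fun a => ∃ b, P (a, b) := by
  obtain ⟨R, hR, h⟩ := h
  exact ⟨_, hR.exists, fun a => exists_congr fun b => h (a, b)⟩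

theorem Sig.ball {P : α × ℕ → Prop} (h : Sig Y P) {g : α → ℕ} (hg : Primrec g) :
    Sig Y fun a => ∀ i < g a, P (a, i) := by
  obtain ⟨R, hR, h⟩ := h
  exact ⟨_, hR.ball hg, fun a => forall_congr' fun i => imp_congr_right fun _ => h (a, i)⟩

/-- A predicate semidecidable from `W ≤ Y` is semidecidable from `Y`. -/
theorem Sig.of_red {W : Orc} {P : α → Prop} (h : Sig W P) (hW : Red W Y) : Sig Y P := by
  obtain ⟨R, hR, h⟩ := h
  obtain ⟨Q, hQ, hW⟩ := hW
  obtain ⟨S, hS, hS'⟩ := hR.subst (Q := fun Y (x : α × ℕ × Bool) => Q Y x.2) (hQ.comp Primrec.snd)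
  exact ⟨S, hS, fun a => (h a).trans (hS' Y a W hW).symm⟩

/-- Querying a set reducible to the oracle. -/
theorem Red.query {X : Orc} (h : Red X Y) {f : α → ℕ} {g : α → Bool} (hf : Primrec f)
    (hg : Primrec g) : Sig Y fun a => X (f a) = g a :=
  (Sig.query hf hg).of_red h

/-- If both `X` and its complement are semidecidable from `Y`, then `X ≤ Y`. -/
theorem red_of_two {X : Orc} (h1 : Sig Y fun n => X n = true) (h0 : Sig Y fun n => X n = false) :
    Red X Y := by
  rw [red_iff_sig]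
  refine (((h1.comp Primrec.fst).and (Sig.of_primrecPred
    (Primrec.eq.comp Primrec.snd (Primrec.const true)))).or ((h0.comp Primrec.fst).and
    (Sig.of_primrecPred (Primrec.eq.comp Primrec.snd (Primrec.const false))))).congr ?_
  rintro ⟨n, b⟩
  cases b <;> simp

end Crest.Agent.R292
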